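import Vale.Agent.P132b.Defs

/-! The key inequality. -/

set_option linter.unusedSectionVars false

namespace Vale.Agent.P132b

open Filter Topology Vale.Agent.P096 Vale.Agent.P096b MeasureTheory
open scoped InnerProductSpace ComplexConjugate

universe u

variable {H : Type u} [NormedAddCommGroup H] [InnerProductSpace ℂ H] [CompleteSpace H]

variable {A B : Alg H} {η : H} (μ : Mod A B η)

theorem cs_sum {ι : Type} [Fintype ι] {f g : ι → ℝ} {a b : ℝ} (ha : 0 ≤ a) (hb : 0 ≤ b)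
    (hf : ∑ k, f k ^ 2 ≤ a ^ 2) (hg : ∑ k, g k ^ 2 ≤ b ^ 2) : ∑ k, f k * g k ≤ a * b := by
  refine (Real.sum_mul_le_sqrt_mul_sqrt _ f g).trans ?_
  exact mul_le_mul (Real.sqrt_le_iff.2 ⟨ha, hf⟩) (Real.sqrt_le_iff.2 ⟨hb, hg⟩)
    (Real.sqrt_nonneg _) ha

theorem cs_inner {ι : Type} [Fintype ι] {f g : ι → H} {a b : ℝ} (ha : 0 ≤ a) (hb : 0 ≤ b)
    (hf : ∑ k, ‖f k‖ ^ 2 ≤ a ^ 2) (hg : ∑ k, ‖g k‖ ^ 2 ≤ b ^ 2) :
    ‖∑ k, ⟪f k, g k⟫_ℂ‖ ≤ a * b :=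
  (norm_sum_le _ _).trans ((Finset.sum_le_sum fun k _ => norm_inner_le_norm (f k) (g k)).trans
    (cs_sum ha hb hf hg))

theorem inner_star_app (c : Op H) (p q : H) : ⟪p, star c q⟫_ℂ = ⟪c p, q⟫_ℂ := by
  rw [ContinuousLinearMap.star_eq_adjoint, ContinuousLinearMap.adjoint_inner_right]

theorem inner_star_app' (c : Op H) (p q : H) : ⟪star c p, q⟫_ℂ = ⟪p, c q⟫_ℂ := by
  rw [ContinuousLinearMap.star_eq_adjoint, ContinuousLinearMap.adjoint_inner_left]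

theorem key_eps {m R ε : ℝ} (hη : ‖η‖ = 1) (hF : Fam μ m) (hR : 0 ≤ R)
    {ζ : H} (h : Gap μ R ζ η) {x : Op H} (hx : x ∈ A) (hε : 0 < ε) :
    ‖⟪x η, ζ⟫_ℂ‖ ≤ ‖ζ‖ * ‖rt μ x η‖ + R * ‖rt μ x η - (m : ℂ) • x η‖ +
      ε * (R * ‖x‖ + 2 * ‖x‖ * ‖ζ‖) := by
  obtain ⟨ι, _, v, hv, h1, h2, h3, h4⟩ := hF (ε ^ 2) (by positivity)
  have hy : star x ∈ A := star_mem hx
  set w : H := ∑ k, star (v k) (v k η) with hw
  have hwθ : ∀ θ, ⟪w, θ⟫_ℂ = ∑ k, ⟪v k η, v k θ⟫_ℂ := fun θ => by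
    rw [hw, sum_inner]
    exact Finset.sum_congr rfl fun k _ => inner_star_app' _ _ _
  have hw1 : ‖w‖ ≤ 1 := by
    have := cs_inner (f := fun k => v k η) (g := fun k => v k w) (norm_nonneg η) (norm_nonneg w)
      (h2 η) (h2 w)
    rw [← hwθ, inner_self_eq_norm_sq_to_K, hη, one_mul] at this
    simp only [norm_pow, Complex.coe_algebraMap, Complex.norm_real, norm_norm] at this
    nlinarith [norm_nonneg w]
  have hw2 : ‖w - η‖ ≤ 2 * ε := by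
    have e1 : (⟪w, η⟫_ℂ).re = ∑ k, ‖v k η‖ ^ 2 := by
      rw [hwθ, Complex.re_sum]
      refine Finset.sum_congr rfl fun k _ => ?_
      rw [inner_self_eq_norm_sq_to_K]
      norm_cast
    have e2 := @norm_sub_sq ℂ H _ _ _ w η
    rw [RCLike.re_to_complex, e1, hη] at e2
    refine (pow_le_pow_iff_left₀ (norm_nonneg _) (by positivity) two_ne_zero).1 ?_
    nlinarith [norm_nonneg w]
  have e3 : ⟪x w, ζ⟫_ℂ = ∑ k, ⟪v k η, ad μ (v k * star x) ζ⟫_ℂ +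
      ∑ k, ⟪v k (rt μ x η), rt μ (v k) ζ⟫_ℂ := by
    rw [← inner_star_app, hwθ, ← Finset.sum_add_distrib]
    refine Finset.sum_congr rfl fun k _ => ?_
    rw [ad_apply, inner_sub_right, rt_mul, mul_apply_eq_comp, mul_apply_eq_comp, rt_star,
      inner_star_app, rt_comm μ (hv k) hx, sub_add_cancel]
  have b1 : ‖∑ k, ⟪v k (rt μ x η), rt μ (v k) ζ⟫_ℂ‖ ≤ ‖rt μ x η‖ * ‖ζ‖ := by
    refine cs_inner (norm_nonneg _) (norm_nonneg _) (h2 _) ?_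
    have := h3 (μ.J ζ)
    simpa only [rt_apply, LinearIsometryEquiv.norm_map] using this
  set d : H := star x η - (m : ℂ) • rt μ (star x) η with hd
  have hdn : ‖d‖ = ‖rt μ x η - (m : ℂ) • x η‖ := by
    rw [← μ.J.norm_map, hd, map_sub, rt_η, rt_η, star_star, LinearIsometryEquiv.map_smulₛₗ, μ.JJ]
    simp
  have e4 : ∀ k, ad μ (v k * star x) η =
      v k d + rt μ (star x) ((m : ℂ) • v k η - rt μ (v k) η) := fun k => by
    rw [ad_apply, rt_mul, mul_apply_eq_comp, mul_apply_eq_comp, hd, map_sub, map_sub, map_smul,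
      map_smul, rt_comm μ (hv k) hy]
    abel
  have b2 : ‖∑ k, ⟪v k η, ad μ (v k * star x) ζ⟫_ℂ‖ ≤ R * (‖d‖ + ‖x‖ * ε) := by
    have s1 := cs_sum (f := fun k => ‖v k η‖) (g := fun k => ‖v k d‖) (norm_nonneg η)
      (norm_nonneg d) (h2 η) (h2 d)
    have s2 := cs_sum (f := fun k => ‖v k η‖)
      (g := fun k => ‖(m : ℂ) • v k η - rt μ (v k) η‖) (norm_nonneg η) hε.le (h2 η) h1
    rw [hη, one_mul] at s1 s2
    calc _ ≤ ∑ k, R * (‖v k η‖ * ‖v k d‖ +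
          ‖x‖ * (‖v k η‖ * ‖(m : ℂ) • v k η - rt μ (v k) η‖)) := by
          refine (norm_sum_le _ _).trans (Finset.sum_le_sum fun k _ => ?_)
          refine (norm_inner_le_norm _ _).trans ?_
          have g1 := h _ (mul_mem (hv k) hy)
          have g2 : ‖ad μ (v k * star x) η‖ ≤
              ‖v k d‖ + ‖x‖ * ‖(m : ℂ) • v k η - rt μ (v k) η‖ := by
            rw [e4]
            refine (norm_add_le _ _).trans (add_le_add le_rfl ?_)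
            refine (ContinuousLinearMap.le_opNorm _ _).trans ?_
            rw [rt_norm, norm_star]
          have g3 := mul_le_mul_of_nonneg_left (g1.trans (mul_le_mul_of_nonneg_left g2 hR))
            (norm_nonneg (v k η))
          refine g3.trans (le_of_eq ?_)
          ring
      _ = R * (∑ k, ‖v k η‖ * ‖v k d‖ +
          ‖x‖ * ∑ k, ‖v k η‖ * ‖(m : ℂ) • v k η - rt μ (v k) η‖) := by
          rw [← Finset.mul_sum, Finset.sum_add_distrib, ← Finset.mul_sum]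
      _ ≤ _ := mul_le_mul_of_nonneg_left
          (add_le_add s1 (mul_le_mul_of_nonneg_left s2 (norm_nonneg _))) hR
  have b3 : ‖⟪x (w - η), ζ⟫_ℂ‖ ≤ ‖x‖ * (2 * ε) * ‖ζ‖ :=
    (norm_inner_le_norm _ _).trans (mul_le_mul_of_nonneg_right
      ((ContinuousLinearMap.le_opNorm _ _).trans
        (mul_le_mul_of_nonneg_left hw2 (norm_nonneg _))) (norm_nonneg _))
  have e5 : ⟪x η, ζ⟫_ℂ = ⟪x w, ζ⟫_ℂ - ⟪x (w - η), ζ⟫_ℂ := by
    rw [map_sub, inner_sub_left, sub_sub_cancel]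
  rw [e5, e3, ← hdn]
  have t1 := norm_sub_le (∑ k, ⟪v k η, ad μ (v k * star x) ζ⟫_ℂ +
      ∑ k, ⟪v k (rt μ x η), rt μ (v k) ζ⟫_ℂ) ⟪x (w - η), ζ⟫_ℂ
  have t2 := norm_add_le (∑ k, ⟪v k η, ad μ (v k * star x) ζ⟫_ℂ)
      (∑ k, ⟪v k (rt μ x η), rt μ (v k) ζ⟫_ℂ)
  nlinarith

/-- Put `y = star x`, `c k = v k * y`, `a = ∑ v* v`. Then
`∑ ⟪v η, ad (v y) ζ⟫ = ⟪x (a η), ζ⟫ - ∑ ⟪v (rt x η), rt v ζ⟫`, where
`∑ ‖v (rt x η)‖ ^ 2 ≤ ‖rt x η‖ ^ 2`, `∑ ‖rt v ζ‖ ^ 2 = ∑ ‖v* (J ζ)‖ ^ 2 ≤ ‖ζ‖ ^ 2`,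
`‖a η‖ ≤ 1` and `re ⟪η, a η⟫ ≥ 1 - ε`, so `‖a η - η‖ ^ 2 ≤ 2 ε`. Further
`ad (v y) η = v (y η - m rt y η) + rt y (m v η - rt v η)` and
`‖y η - m rt y η‖ = ‖rt x η - m x η‖` (apply `J`). Cauchy-Schwarz and `ε → 0`. -/
theorem key_ineq {m R : ℝ} (hη : ‖η‖ = 1) (hF : Fam μ m) (hR : 0 ≤ R)
    {ζ : H} (h : Gap μ R ζ η) {x : Op H} (hx : x ∈ A) :
    ‖⟪x η, ζ⟫_ℂ‖ ≤ ‖ζ‖ * ‖rt μ x η‖ + 2 * R * ‖rt μ x η - (m : ℂ) • x η‖ := by
  have hK : 0 ≤ R * ‖x‖ + 2 * ‖x‖ * ‖ζ‖ := by positivity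
  have hD : 0 ≤ R * ‖rt μ x η - (m : ℂ) • x η‖ := by positivity
  refine le_of_forall_pos_le_add fun δ hδ => ?_
  have k := key_eps μ hη hF hR h hx (ε := δ / (R * ‖x‖ + 2 * ‖x‖ * ‖ζ‖ + 1)) (by positivity)
  have : δ / (R * ‖x‖ + 2 * ‖x‖ * ‖ζ‖ + 1) * (R * ‖x‖ + 2 * ‖x‖ * ‖ζ‖) ≤ δ := by
    rw [div_mul_eq_mul_div, div_le_iff₀ (by positivity)]
    nlinarith
  nlinarith

end Vale.Agent.P132b
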