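import Vale.Agent.P132b.Bump
import Vale.Agent.P132b.Freq1

/-! Vectors with a spectral gap have frequency zero. -/

set_option linter.unusedSectionVars false

namespace Vale.Agent.P132b

open Filter Topology Vale.Agent.P096 Vale.Agent.P096b MeasureTheory
open scoped InnerProductSpace ComplexConjugate

universe u

variable {H : Type u} [NormedAddCommGroup H] [InnerProductSpace ℂ H] [CompleteSpace H]

variable {A B : Alg H} {η : H} (μ : Mod A B η)

theorem freq_U (t : ℝ) (c : Op H) (ζ : H) :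
    ‖ad μ c (μ.U t ζ)‖ = ‖ad μ (μ.σ (-t) c) ζ‖ := by
  rw [← μ.norm_U t (ad μ (μ.σ (-t) c) ζ), ad_apply, ad_apply, map_sub, U_σ, U_σ, ← rt_σ, μ.σ_σ,
    add_neg_cancel, μ.σ_zero]

/-- `ad c (U t ζ) = U t (ad (σ (-t) c) ζ)`, and `ad c` commutes with the integral of
`Calc.integral`. -/
theorem Gap.filt {R : ℝ} {ζ : H} (h : Gap μ R ζ η) {k : ℝ → ℂ} (hk : Integrable k) :
    Gap μ (R * ∫ t, ‖k t‖) (μ.F (ft k) ζ) η := by
  intro c hc
  have h1 : ∀ t, ‖ad μ c (μ.U t ζ)‖ ≤ R * ‖ad μ c η‖ := fun t => by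
    have := h _ (μ.uA (-t) c hc)
    rwa [← freq_U, ← freq_U, μ.U_fix μ.cp] at this
  rw [μ.integral hk, ← ContinuousLinearMap.integral_comp_comm _ (μ.integrable_U hk ζ)]
  refine (norm_integral_le_of_norm_le (hk.norm.mul_const (R * ‖ad μ c η‖))
    (ae_of_all _ fun t => ?_)).trans_eq ?_
  · rw [map_smul, norm_smul]
    exact mul_le_mul_of_nonneg_left (h1 t) (norm_nonneg _)
  · rw [integral_mul_const]
    ring

theorem Gap.J {R : ℝ} {ζ : H} (h : Gap μ R ζ η) : Gap μ R (μ.J ζ) η := by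
  intro c hc
  have h1 := h _ (star_mem hc)
  rw [← μ.J.norm_map, ← μ.J.norm_map (ad μ _ η), J_ad, J_ad, star_star, norm_neg, norm_neg,
    μ.J_fix μ.cp] at h1
  exact h1

/-- By `Pre.core` the inequality holds with `x η`, `rt x η` replaced by `F cf γ`, `F sf γ`. -/
theorem key_core {m R : ℝ} {ζ : H}
    (h : ∀ x ∈ A, ‖⟪x η, ζ⟫_ℂ‖ ≤ ‖ζ‖ * ‖rt μ x η‖ + R * ‖rt μ x η - (m : ℂ) • x η‖) (γ : H) :
    ‖⟪μ.F cf γ, ζ⟫_ℂ‖ ≤ ‖ζ‖ * ‖μ.F sf γ‖ + R * ‖μ.F sf γ - (m : ℂ) • μ.F cf γ‖ := by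
  choose z hz k1 k2 using fun n : ℕ => μ.core γ (1 / ((n : ℝ) + 1)) Nat.one_div_pos_of_nat
  have t1 : Tendsto (fun n => z n η) atTop (𝓝 (μ.F cf γ)) := by
    rw [tendsto_iff_norm_sub_tendsto_zero]
    exact squeeze_zero (fun _ => norm_nonneg _) (fun n => (k1 n).le)
      tendsto_one_div_add_atTop_nhds_zero_nat
  have t2 : Tendsto (fun n => rt μ (z n) η) atTop (𝓝 (μ.F sf γ)) := by
    simp only [rt_η]
    rw [tendsto_iff_norm_sub_tendsto_zero]
    exact squeeze_zero (fun _ => norm_nonneg _) (fun n => (k2 n).le)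
      tendsto_one_div_add_atTop_nhds_zero_nat
  exact le_of_tendsto_of_tendsto' (t1.inner tendsto_const_nhds).norm
    ((t2.norm.const_mul _).add ((t2.sub (t1.const_smul (m : ℂ))).norm.const_mul R))
    fun n => h _ (hz n)

theorem freq_inv {κ : ℝ} (h : κ ≤ 0) : ‖(cf κ)⁻¹‖ ≤ 2 := by
  have h1 : Real.exp κ ≤ 1 := Real.exp_le_one_iff.2 h
  rw [cf, ← Complex.ofReal_inv, Complex.norm_real, Real.sqrt_inv, inv_inv,
    Real.norm_of_nonneg (Real.sqrt_nonneg _)]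
  exact Real.sqrt_le_iff.2 ⟨by norm_num, by linarith⟩

/-- Let `g = ft k` be the bump at `-r` of width `δ ≤ δ₀ = min (a / 8) (1 / 2)`,
`m = exp (-r / 2)`, `ζ' = F g ζ` (gap constant `R C`), `γ = F (g / cf) ζ`. Then `F cf γ = ζ'`,
`‖F sf γ‖ ≤ exp (-a / 4) ‖ζ'‖`, `‖F sf γ - m F cf γ‖ ≤ 2 δ ‖ζ'‖` (`Calc.norm_mono`), so
`(1 - exp (-a / 4)) ‖ζ'‖ ≤ 4 R C δ`. -/
theorem window (hη : ‖η‖ = 1) (hF : ∀ m : ℝ, 0 < m → m ≤ 1 → Fam μ m) {R : ℝ} (hR : 0 ≤ R)
    {ζ : H} (h : Gap μ R ζ η) (a : ℝ) (ha : 0 < a) : ∃ C δ₀ : ℝ, 0 < δ₀ ∧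
      ∀ r δ : ℝ, a ≤ r → 0 < δ → δ ≤ δ₀ →
        ∃ g, BC g ∧ (∀ κ, |κ + r| ≤ δ → g κ = 1) ∧ ‖μ.F g ζ‖ ≤ C * δ := by
  obtain ⟨C, C0, hb⟩ := bump
  have q1 : Real.exp (-a / 4) < 1 := Real.exp_lt_one_iff.2 (by linarith)
  refine ⟨4 * R * C / (1 - Real.exp (-a / 4)), min (a / 8) (1 / 2), by positivity,
    fun r δ hr δ0 hδ => ?_⟩
  have δ1 : δ ≤ a / 8 := hδ.trans (min_le_left _ _)
  have δ2 : δ ≤ 1 / 2 := hδ.trans (min_le_right _ _)
  obtain ⟨k, ki, kC, k1, k2, k3⟩ := hb (-r) δ δ0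
  simp only [sub_neg_eq_add] at k2 k3
  have bg := bc_ft ki
  refine ⟨ft k, bg, k2, ?_⟩
  have hG := Gap.filt μ h ki
  have I0 : 0 ≤ ∫ t, ‖k t‖ := integral_nonneg fun _ => norm_nonneg _
  generalize ft k = g at k1 k2 k3 bg hG ⊢
  have cases : ∀ κ, g κ = 0 ∨ |κ + r| < 2 * δ := fun κ =>
    (le_or_gt (2 * δ) |κ + r|).imp_left (k3 κ)
  have bw : BC fun κ => g κ * (cf κ)⁻¹ := by
    refine BC.of_le (bg.1.mul (bc_cf.1.inv₀ cf_ne)) (C := 2) fun κ => ?_
    rcases cases κ with h0 | h0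
    · simp [h0]
    · rw [norm_mul]
      have := freq_inv (κ := κ) (by linarith [(abs_lt.1 h0).2])
      nlinarith [k1 κ, norm_nonneg (cf κ)⁻¹]
  have e1 : ∀ κ, cf κ * (g κ * (cf κ)⁻¹) = g κ := fun κ => by
    have := cf_ne κ
    field_simp
  have e2 : ∀ κ, sf κ * (g κ * (cf κ)⁻¹) = (Real.exp (κ / 2) : ℝ) * g κ := fun κ => by
    rw [sf_eq, mul_assoc, e1]
  have m0 := Real.exp_pos (-r / 2)
  have m1 : Real.exp (-r / 2) ≤ 1 := Real.exp_le_one_iff.2 (by linarith)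
  have key := key_core μ
    (fun x hx => key_ineq μ hη (hF _ m0 m1) (mul_nonneg hR I0) hG hx)
    (μ.F (fun κ => g κ * (cf κ)⁻¹) ζ)
  have bs := bc_sf.mul bw
  rw [μ.mul_apply bc_cf bw, μ.mul_apply bc_sf bw] at key
  simp only [e1] at key
  simp only [e2] at key bs
  have n1 : ‖μ.F (fun κ => (Real.exp (κ / 2) : ℝ) * g κ) ζ‖ ≤
      Real.exp (-a / 4) * ‖μ.F g ζ‖ := by
    have := μ.norm_mono bs (bg.cmul (Real.exp (-a / 4) : ℝ)) (fun κ => by
      rcases cases κ with h0 | h0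
      · simp [h0]
      · rw [norm_mul, norm_mul, Complex.norm_real, Complex.norm_real,
          Real.norm_of_nonneg (Real.exp_pos _).le, Real.norm_of_nonneg (Real.exp_pos _).le]
        exact mul_le_mul_of_nonneg_right
          (Real.exp_le_exp.2 (by linarith [(abs_lt.1 h0).2])) (norm_nonneg _)) ζ
    rwa [μ.smul _ bg, smul_apply, norm_smul, Complex.norm_real,
      Real.norm_of_nonneg (Real.exp_pos _).le] at this
  have n2 : ‖μ.F (fun κ => (Real.exp (κ / 2) : ℝ) * g κ) ζ -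
      ((Real.exp (-r / 2) : ℝ) : ℂ) • μ.F g ζ‖ ≤ 2 * δ * ‖μ.F g ζ‖ := by
    have := μ.norm_mono (bs.sub (bg.cmul (Real.exp (-r / 2) : ℝ))) (bg.cmul (2 * δ : ℝ))
      (fun κ => by
        rcases cases κ with h0 | h0
        · simp [h0]
        · rw [← sub_mul, norm_mul, norm_mul, ← Complex.ofReal_sub, Complex.norm_real,
            Complex.norm_real, Real.norm_of_nonneg (r := 2 * δ) (by positivity)]
          refine mul_le_mul_of_nonneg_right ?_ (norm_nonneg _)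
          have a1 : |(κ + r) / 2| ≤ δ := by
            rw [abs_div, abs_two]
            linarith
          have a2 := Real.abs_exp_sub_one_le (a1.trans (by linarith))
          have a3 : Real.exp (κ / 2) - Real.exp (-r / 2) =
              Real.exp (-r / 2) * (Real.exp ((κ + r) / 2) - 1) := by
            rw [mul_sub, ← Real.exp_add, mul_one]
            ring_nf
          rw [a3, Real.norm_eq_abs, abs_mul, abs_of_pos m0]
          nlinarith [abs_nonneg (Real.exp ((κ + r) / 2) - 1)]) ζ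
    rwa [μ.sub bs (bg.cmul _), μ.smul _ bg, μ.smul _ bg, sub_apply, smul_apply, smul_apply,
      norm_smul, Complex.norm_real, Real.norm_of_nonneg (r := 2 * δ) (by positivity)] at this
  rw [inner_self_eq_norm_sq_to_K, norm_pow] at key
  simp only [Complex.coe_algebraMap, Complex.norm_real, norm_norm] at key
  have n3 : 2 * (R * ∫ t, ‖k t‖) ≤ 2 * (R * C) := by gcongr
  have n4 := mul_le_mul n3 n2 (norm_nonneg _) (by positivity)
  have n5 := mul_le_mul_of_nonneg_left n1 (norm_nonneg (μ.F g ζ))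
  rw [div_mul_eq_mul_div, le_div_iff₀ (by linarith)]
  rcases (norm_nonneg (μ.F g ζ)).eq_or_lt with h0 | h0
  · rw [← h0, zero_mul]
    positivity
  · refine le_of_mul_le_mul_left ?_ h0
    nlinarith

/-- `no_mass` for `ζ` and `J ζ` (with `Pre.JF`) kills `F f ζ` for `f` vanishing on a closed half
line; write `ex t - 1 = f₁ + f₂` with `f₁ κ = ex t (min κ 0) - 1`, `f₂ κ = ex t (max κ 0) - 1`. -/
theorem gap_fix (hη : ‖η‖ = 1) (hF : ∀ m : ℝ, 0 < m → m ≤ 1 → Fam μ m) {R : ℝ} (hR : 0 ≤ R)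
    {ζ : H} (h : Gap μ R ζ η) (t : ℝ) : μ.U t ζ = ζ := by
  have b1 : BC fun κ => ex t (min κ 0) - 1 :=
    ((bc_ex t).comp (continuous_id.min continuous_const)).sub (BC.const 1)
  have b2 : BC fun κ => ex t (max κ 0) - 1 :=
    ((bc_ex t).comp (continuous_id.max continuous_const)).sub (BC.const 1)
  have h1 := no_mass μ.toCalc (window μ hη hF hR h) b1 fun κ hκ => by
    rw [min_eq_right hκ, ex_zero', sub_self]
  have h2 := no_mass μ.toCalc (window μ hη hF hR (Gap.J μ h)) (b2.comp continuous_neg).conj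
    fun κ hκ => by rw [max_eq_right (neg_nonpos.2 hκ), ex_zero', sub_self, map_zero]
  rw [← μ.JF b2, μ.J.map_eq_zero_iff] at h2
  have e : (fun κ => ex t κ - 1) = fun κ => (ex t (min κ 0) - 1) + (ex t (max κ 0) - 1) := by
    funext κ
    rcases le_total κ 0 with hκ | hκ
    · rw [min_eq_left hκ, max_eq_right hκ, ex_zero', sub_self, add_zero]
    · rw [min_eq_right hκ, max_eq_left hκ, ex_zero', sub_self, zero_add]
  have h3 := μ.sub (bc_ex t) (BC.const 1)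
  rw [e, μ.add b1 b2, μ.one] at h3
  have h4 := congrArg (fun T : Op H => T ζ) h3
  simp only [add_apply, sub_apply, one_apply_eq_self, h1, h2, add_zero] at h4
  exact sub_eq_zero.1 h4.symm

end Vale.Agent.P132b
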