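import Vale.Agent.P132b.Defs

/-! From unitaries to the spectral gap inequality. -/

set_option linter.unusedSectionVars false

namespace Vale.Agent.P132b

open Filter Topology Vale.Agent.P096 Vale.Agent.P096b MeasureTheory
open scoped InnerProductSpace ComplexConjugate

universe u

variable {H : Type u} [NormedAddCommGroup H] [InnerProductSpace ℂ H] [CompleteSpace H]

variable {A B : Alg H} {η : H} (μ : Mod A B η)

/-- The commutator with a vector as a linear map. -/
noncomputable def adL (ζ : H) : Op H →L[ℂ] H :=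
  LinearMap.mkContinuous
    { toFun := fun c => ad μ c ζ
      map_add' := fun a b => by
        simp only [ad_apply, rt_add, add_apply]
        abel
      map_smul' := fun c a => by
        simp only [ad_apply, rt_smul, smul_apply, RingHom.id_apply, smul_sub] }
    (2 * ‖ζ‖) fun c => by
      have h1 := c.le_opNorm ζ
      have h2 := (rt μ c).le_opNorm ζ
      rw [rt_norm] at h2
      have h3 := norm_sub_le (c ζ) (rt μ c ζ)
      change ‖c ζ - rt μ c ζ‖ ≤ _
      linarith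

theorem adL_apply (ζ : H) (c : Op H) : adL μ ζ c = ad μ c ζ := rfl

theorem adL_one (ζ : H) : adL μ ζ 1 = 0 := by
  rw [adL_apply, ad_apply, rt_one, sub_self]

/-- For self-adjoint `d ∈ A` let `u τ = exp (τ • I • d)`; it is a unitary in `A` (`tl_closed`,
or: it commutes with `B`). The map `c ↦ ad μ c ζ` is continuous linear and kills `1`, so dividing
`‖ad (u τ) ζ‖ ≤ R ‖ad (u τ) θ‖` by `τ → 0` (`hasDerivAt_exp_smul_const`) gives the inequality for
`d`. -/
theorem gap_sa {R : ℝ} {ζ θ : H}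
    (h : ∀ u ∈ A, u ∈ unitary (Op H) → ‖ad μ u ζ‖ ≤ R * ‖ad μ u θ‖) {d : Op H} (hd : d ∈ A)
    (hs : star d = d) : ‖ad μ d ζ‖ ≤ R * ‖ad μ d θ‖ := by
  let _ : NormedAlgebra ℚ (Op H) := NormedAlgebra.restrictScalars ℚ ℂ _
  have h1 := (hasDerivAt_exp_smul_const (𝕂 := ℂ) (Complex.I • d) 0).tendsto_slope_zero
  simp only [zero_smul, NormedSpace.exp_zero, one_mul, zero_add] at h1
  set τ : ℕ → ℂ := fun n => ((1 / ((n : ℝ) + 1) : ℝ) : ℂ) with hτ
  have h2 : Tendsto τ atTop (𝓝[≠] 0) := by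
    refine tendsto_nhdsWithin_iff.2 ⟨?_, Eventually.of_forall fun n => ?_⟩
    · exact (Complex.continuous_ofReal.tendsto' 0 _ Complex.ofReal_zero).comp
        tendsto_one_div_add_atTop_nhds_zero_nat
    · exact Complex.ofReal_ne_zero.2 (by positivity)
  have h3 := h1.comp h2
  have e : ∀ ω : H, ‖adL μ ω (Complex.I • d)‖ = ‖ad μ d ω‖ := fun ω => by
    rw [map_smul, norm_smul, Complex.norm_I, one_mul, adL_apply]
  rw [← e, ← e]
  refine le_of_tendsto_of_tendsto' (((adL μ ζ).continuous.tendsto _).comp h3).norm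
    ((((adL μ θ).continuous.tendsto _).comp h3).norm.const_mul R) fun n => ?_
  simp only [Function.comp, map_smul, map_sub, adL_one, sub_zero, norm_smul]
  rw [mul_left_comm]
  refine mul_le_mul_of_nonneg_left (h _ ?_ ?_) (norm_nonneg _)
  · refine (μ.cp.left _).2 fun b hb => ?_
    have : Commute b d := ((μ.cp.left d).1 hd b hb).symm
    exact ((this.smul_right _).smul_right _).exp_right.symm
  · refine NormedSpace.exp_mem_unitary_of_mem_skewAdjoint (skewAdjoint.mem_iff.2 ?_)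
    simp only [hτ, star_smul, hs, Complex.star_def, Complex.conj_ofReal, Complex.conj_I, neg_smul,
      smul_neg]

/-- Write `c = d₁ + i d₂`. By the parallelogram law
`‖ad c ζ‖ ^ 2 + ‖ad c* ζ‖ ^ 2 = 2 (‖ad d₁ ζ‖ ^ 2 + ‖ad d₂ ζ‖ ^ 2)`, and `‖ad c* θ‖ = ‖ad c θ‖` by
`J_ad`. -/
theorem gap_of_unitary {R : ℝ} (hR : 0 ≤ R) {ζ θ : H} (hθ : μ.J θ = θ)
    (h : ∀ u ∈ A, u ∈ unitary (Op H) → ‖ad μ u ζ‖ ≤ R * ‖ad μ u θ‖) : Gap μ (2 * R) ζ θ := by
  intro c hc
  set d₁ : Op H := (1 / 2 : ℂ) • (c + star c) with h1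
  set d₂ : Op H := (Complex.I / 2) • (star c - c) with h2
  have m1 : d₁ ∈ A := A.smul_mem (add_mem hc (star_mem hc)) _
  have m2 : d₂ ∈ A := A.smul_mem (sub_mem (star_mem hc) hc) _
  have s1 : star d₁ = d₁ := by
    rw [h1, star_smul, star_add, star_star, add_comm]
    simp
  have s2 : star d₂ = d₂ := by
    rw [h2, star_smul, star_sub, star_star, ← neg_sub, smul_neg, ← neg_smul]
    congr 1
    simp [neg_div]
  have e1 : c = d₁ + Complex.I • d₂ := by
    rw [h1, h2, smul_smul, show Complex.I * (Complex.I / 2) = -(1 / 2) by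
      rw [← mul_div_assoc, Complex.I_mul_I, neg_div]]
    module
  have e2 : star c = d₁ - Complex.I • d₂ := by
    rw [h1, h2, smul_smul, show Complex.I * (Complex.I / 2) = -(1 / 2) by
      rw [← mul_div_assoc, Complex.I_mul_I, neg_div]]
    module
  have par : ∀ ω : H, ‖ad μ c ω‖ ^ 2 + ‖ad μ (star c) ω‖ ^ 2 =
      2 * (‖ad μ d₁ ω‖ ^ 2 + ‖ad μ d₂ ω‖ ^ 2) := fun ω => by
    have := parallelogram_law_with_norm ℂ (adL μ ω d₁) (adL μ ω (Complex.I • d₂))
    rw [← map_add, ← map_sub, ← e1, ← e2, map_smul _ Complex.I, norm_smul Complex.I,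
      Complex.norm_I, one_mul] at this
    exact this
  have t1 : ‖ad μ (star c) θ‖ = ‖ad μ c θ‖ := by
    rw [← μ.J.norm_map (ad μ c θ), J_ad, hθ, norm_neg]
  have g1 := pow_le_pow_left₀ (norm_nonneg _) (gap_sa μ h m1 s1) 2
  have g2 := pow_le_pow_left₀ (norm_nonneg _) (gap_sa μ h m2 s2) 2
  have p1 := par ζ
  have p2 := par θ
  rw [t1] at p2
  rw [mul_pow] at g1 g2
  refine (sq_le_sq₀ (norm_nonneg _) (by positivity)).1 ?_
  have p3 : R ^ 2 * (‖ad μ d₁ θ‖ ^ 2 + ‖ad μ d₂ θ‖ ^ 2) = R ^ 2 * ‖ad μ c θ‖ ^ 2 := by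
    congr 1
    linarith
  have p4 : 0 ≤ R ^ 2 * ‖ad μ c θ‖ ^ 2 := by positivity
  nlinarith [sq_nonneg ‖ad μ (star c) ζ‖]

end Vale.Agent.P132b
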