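import Vale.Agent.P132b.Defs

/-! The variational lemma. -/

set_option linter.unusedSectionVars false

namespace Vale.Agent.P132b

open Filter Topology Vale.Agent.P096 Vale.Agent.P096b MeasureTheory
open scoped InnerProductSpace ComplexConjugate

universe u

variable {H : Type u} [NormedAddCommGroup H] [InnerProductSpace ℂ H] [CompleteSpace H]

/-- The nearest point of the closed convex hull of a family. -/
theorem var_abs {G : Type u} [Nonempty G] (f : G → H) (u : H) : ∃ v : H,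
    (∀ ε : ℝ, 0 < ε → ∃ (n : ℕ) (l : Fin n → ℝ) (g : Fin n → G), (∀ i, 0 ≤ l i) ∧
      ∑ i, l i = 1 ∧ ‖∑ i, (l i : ℂ) • f (g i) - v‖ ≤ ε) ∧
    (∀ g, (⟪u - v, f g - v⟫_ℂ).re ≤ 0) ∧
    ∀ L : Op H, (∀ g, ∃ k, L (f g) = f k) → (⟪u - v, L v - v⟫_ℂ).re ≤ 0 := by
  letI : InnerProductSpace ℝ H := InnerProductSpace.complexToReal
  have hc : Convex ℝ (closure (convexHull ℝ (Set.range f))) := (convex_convexHull ℝ _).closure
  have hs : Set.range f ⊆ closure (convexHull ℝ (Set.range f)) :=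
    (subset_convexHull ℝ _).trans subset_closure
  obtain ⟨v, hv, hm⟩ := exists_norm_eq_iInf_of_complete_convex
    ((Set.range_nonempty f).mono hs) isClosed_closure.isComplete hc u
  have key : ∀ w ∈ closure (convexHull ℝ (Set.range f)), (⟪u - v, w - v⟫_ℂ).re ≤ 0 :=
    (norm_eq_iInf_iff_real_inner_le_zero hc hv).1 hm
  refine ⟨v, fun ε hε => ?_, fun g => key _ (hs ⟨g, rfl⟩), fun L hL => key _ ?_⟩
  · obtain ⟨w, hw, hd⟩ := Metric.mem_closure_iff.1 hv ε hε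
    obtain ⟨ι, _, l, z, h0, h1, hz, rfl⟩ := mem_convexHull_iff_exists_fintype.1 hw
    choose g hg using hz
    let e := (Fintype.equivFin ι).symm
    refine ⟨_, fun i => l (e i), fun i => g (e i), fun i => h0 _, ?_, ?_⟩
    · rw [e.sum_comp l, h1]
    · rw [e.sum_comp fun i => (l i : ℂ) • f (g i), ← dist_eq_norm, dist_comm]
      simpa only [hg, Complex.coe_smul] using hd.le
  · have h1 : Set.MapsTo L (convexHull ℝ (Set.range f)) (convexHull ℝ (Set.range f)) := by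
      intro w hw
      obtain ⟨ι, _, l, z, h0, h1, hz, rfl⟩ := mem_convexHull_iff_exists_fintype.1 hw
      refine mem_convexHull_of_exists_fintype l (fun i => L (z i)) h0 h1 (fun i => ?_) ?_
      · obtain ⟨g, hg⟩ := hz i
        obtain ⟨k, hk⟩ := hL g
        exact ⟨k, by rw [← hg, hk]⟩
      · rw [map_sum]
        exact Finset.sum_congr rfl fun i _ => by
          rw [← Complex.coe_smul, ← Complex.coe_smul, map_smul]
    exact h1.closure L.continuous hv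

theorem re_inner_sub {x y : H} (h : ‖y‖ = ‖x‖) : (⟪x, y - x⟫_ℂ).re = -‖y - x‖ ^ 2 / 2 := by
  have h1 := norm_sub_sq (𝕜 := ℂ) x y
  rw [inner_sub_right, Complex.sub_re, norm_sub_rev y, h1, h, inner_self_eq_norm_sq_to_K]
  simp only [RCLike.re_to_complex, Complex.coe_algebraMap, ← Complex.ofReal_pow,
    Complex.ofReal_re]
  ring

theorem re_inner_le (x y : H) : (⟪x, y - x⟫_ℂ).re ≤ ‖y‖ ^ 2 / 4 := by
  have h1 : (⟪x, y⟫_ℂ).re ≤ ‖x‖ * ‖y‖ := re_inner_le_norm (𝕜 := ℂ) x y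
  rw [inner_sub_right, Complex.sub_re, inner_self_eq_norm_sq_to_K]
  simp only [Complex.coe_algebraMap, ← Complex.ofReal_pow, Complex.ofReal_re]
  nlinarith [sq_nonneg (‖y‖ - 2 * ‖x‖)]

/-- The diagonal action on pairs. -/
noncomputable def dg (L : Op H) : Op (WithLp 2 (H × H)) :=
  (WithLp.prodContinuousLinearEquiv 2 ℂ H H).symm.toContinuousLinearMap ∘L (L.prodMap L) ∘L
    (WithLp.prodContinuousLinearEquiv 2 ℂ H H).toContinuousLinearMap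

theorem dg_apply (L : Op H) (a b : H) : dg L (WithLp.toLp 2 (a, b)) = WithLp.toLp 2 (L a, L b) :=
  rfl

theorem pair_re (a b c d e f : H) : (⟪WithLp.toLp 2 (a, b) - WithLp.toLp 2 (c, d),
    WithLp.toLp 2 (e, f) - WithLp.toLp 2 (c, d)⟫_ℂ).re =
      (⟪a - c, e - c⟫_ℂ).re + (⟪b - d, f - d⟫_ℂ).re := by
  rw [WithLp.prod_inner_apply, Complex.add_re]
  rfl

theorem re_smul_smul (R : ℝ) (x y : H) :
    (⟪(R : ℂ) • x, (R : ℂ) • y⟫_ℂ).re = R ^ 2 * (⟪x, y⟫_ℂ).re := by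
  rw [inner_smul_left, inner_smul_right, Complex.conj_ofReal, ← mul_assoc, ← Complex.ofReal_mul,
    Complex.re_ofReal_mul, sq]

theorem var_sum {L : Op H} (hL : L ∈ unitary (Op H)) (d b : H) :
    ⟪d, L b - b⟫_ℂ + ⟪d, star L b - b⟫_ℂ = -⟪L d - d, L b - b⟫_ℂ := by
  have h1 : ⟪L d, L b⟫_ℂ = ⟪d, b⟫_ℂ := by
    rw [← ContinuousLinearMap.adjoint_inner_right, ← ContinuousLinearMap.star_eq_adjoint,
      ← mul_apply_eq_comp, (Unitary.mem_iff.1 hL).1, one_apply_eq_self]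
  have h2 : ⟪d, star L b⟫_ℂ = ⟪L d, b⟫_ℂ := by
    rw [ContinuousLinearMap.star_eq_adjoint, ContinuousLinearMap.adjoint_inner_right]
  simp only [inner_sub_left, inner_sub_right, h1, h2]
  ring

/-- Let `K` be the closure of the convex hull of `{(T g ξ, T g θ)}`. It is invariant under every
`T g`. Minimize `‖a‖ ^ 2 + R ^ 2 ‖b - θ‖ ^ 2` over `K`, for instance by
`exists_norm_eq_iInf_of_complete_convex` for the point `(0, R θ)` and the set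
`{(a, R b)}` in `WithLp 2 (H × H)` (real inner product space), or directly by the parallelogram
law. The first order condition (`norm_eq_iInf_iff_real_inner_le_zero`) at `(T g ξ₀, T g θ₀)` and
`(T g* ξ₀, T g* θ₀)`, added up, reads
`‖T g ξ₀ - ξ₀‖ ^ 2 ≤ R ^ 2 (re ⟪T g θ₀ - θ₀, T g θ - θ⟫ - ‖T g θ₀ - θ₀‖ ^ 2)`, which is at most
`R ^ 2 ‖T g θ - θ‖ ^ 2 / 4`. The last item: `W` maps `K` to `K` and preserves the functional, and
the minimizer is unique. -/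
theorem var_cvx {G : Type u} (T : G → Op H) (hu : ∀ g, T g ∈ unitary (Op H)) (h1 : ∃ g, T g = 1)
    (hmul : ∀ g h, ∃ k, T k = T g * T h) (hstar : ∀ g, ∃ k, T k = star (T g)) (ξ θ : H)
    {R : ℝ} (hR : 0 < R) : ∃ ξ₀ θ₀ : H,
      (∀ ε : ℝ, 0 < ε → ∃ (n : ℕ) (l : Fin n → ℝ) (g : Fin n → G), (∀ i, 0 ≤ l i) ∧
        ∑ i, l i = 1 ∧ ‖∑ i, (l i : ℂ) • T (g i) ξ - ξ₀‖ ≤ ε ∧
          ‖∑ i, (l i : ℂ) • T (g i) θ - θ₀‖ ≤ ε) ∧
      R * ‖θ₀ - θ‖ ≤ ‖ξ‖ ∧ (∀ g, ‖T g ξ₀ - ξ₀‖ ≤ R * ‖T g θ - θ‖) ∧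
      ∀ W ∈ unitary (Op H), (∀ g, ∃ k, W * T g = T k * W) → W ξ = ξ → W θ = θ → W ξ₀ = ξ₀ := by
  obtain ⟨g₁, hg₁⟩ := h1
  haveI : Nonempty G := ⟨g₁⟩
  have hR' : (R : ℂ) ≠ 0 := Complex.ofReal_ne_zero.2 hR.ne'
  obtain ⟨v, ha, hb, hc⟩ := var_abs
    (fun g => WithLp.toLp 2 (T g ξ, (R : ℂ) • T g θ)) (WithLp.toLp 2 ((0 : H), (R : ℂ) • θ))
  obtain ⟨ξ₀, θ₀, rfl⟩ : ∃ ξ₀ θ₀ : H, v = WithLp.toLp 2 (ξ₀, (R : ℂ) • θ₀) :=
    ⟨v.fst, (R : ℂ)⁻¹ • v.snd, by rw [smul_inv_smul₀ hR']; rfl⟩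
  have hd : ∀ L : Op H, (∀ g, ∃ k, L (T g ξ) = T k ξ ∧ L (T g θ) = T k θ) →
      -(⟪ξ₀, L ξ₀ - ξ₀⟫_ℂ).re + R ^ 2 * (⟪θ - θ₀, L θ₀ - θ₀⟫_ℂ).re ≤ 0 := by
    intro L hL
    have := hc (dg L) fun g => by
      obtain ⟨k, h1, h2⟩ := hL g
      exact ⟨k, by rw [dg_apply, map_smul, h1, h2]⟩
    rwa [dg_apply, pair_re, zero_sub, inner_neg_left, Complex.neg_re, map_smul, ← smul_sub,
      ← smul_sub, re_smul_smul] at this
  have hT : ∀ g, -(⟪ξ₀, T g ξ₀ - ξ₀⟫_ℂ).re + R ^ 2 * (⟪θ - θ₀, T g θ₀ - θ₀⟫_ℂ).re ≤ 0 :=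
    fun g => hd _ fun h => by
      obtain ⟨k, hk⟩ := hmul g h
      exact ⟨k, by rw [hk, mul_apply_eq_comp], by rw [hk, mul_apply_eq_comp]⟩
  refine ⟨ξ₀, θ₀, fun ε hε => ?_, ?_, fun g => ?_, fun W hW hWT hξ hθ => ?_⟩
  · obtain ⟨n, l, g, h0, h1, h2⟩ := ha (min ε (R * ε)) (lt_min hε (mul_pos hR hε))
    have e : ∑ i, (l i : ℂ) • WithLp.toLp 2 (T (g i) ξ, (R : ℂ) • T (g i) θ) -
        WithLp.toLp 2 (ξ₀, (R : ℂ) • θ₀) = WithLp.toLp 2 (∑ i, (l i : ℂ) • T (g i) ξ - ξ₀,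
          (R : ℂ) • (∑ i, (l i : ℂ) • T (g i) θ - θ₀)) := by
      apply (WithLp.prodContinuousLinearEquiv 2 ℂ H H).injective
      rw [map_sub, map_sum]
      refine Prod.ext ?_ ?_
      · simp [Prod.fst_sum]
      · simp [Prod.snd_sum, smul_sub, Finset.smul_sum, smul_comm (R : ℂ)]
    rw [e] at h2
    have h3 := (WithLp.norm_fst_le _ _).trans h2
    have h4 := (WithLp.norm_snd_le _ _).trans h2
    refine ⟨n, l, g, h0, h1, h3.trans (min_le_left _ _), ?_⟩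
    have h5 := h4.trans (min_le_right _ _)
    rw [WithLp.toLp_snd, norm_smul, Complex.norm_real, Real.norm_of_nonneg hR.le] at h5
    exact le_of_mul_le_mul_left h5 hR
  · have := hb g₁
    simp only [hg₁, one_apply_eq_self] at this
    rw [pair_re, zero_sub, inner_neg_left, Complex.neg_re, ← smul_sub, re_smul_smul,
      inner_self_eq_norm_sq_to_K] at this
    simp only [Complex.coe_algebraMap, ← Complex.ofReal_pow, Complex.ofReal_re] at this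
    have h2 := re_inner_le ξ₀ ξ
    rw [norm_sub_rev]
    refine abs_le_of_sq_le_sq' ?_ (norm_nonneg _) |>.2
    nlinarith [sq_nonneg ‖ξ‖]
  · obtain ⟨k, hk⟩ := hstar g
    have h1 := hT g
    have h2 := hT k
    have hs : star (T g) ∈ unitary (Op H) := Unitary.star_mem (hu g)
    rw [hk, re_inner_sub (unitary_norm hs ξ₀)] at h2
    rw [re_inner_sub (unitary_norm (hu g) ξ₀)] at h1
    have h3 : ‖star (T g) ξ₀ - ξ₀‖ = ‖T g ξ₀ - ξ₀‖ := by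
      rw [← unitary_norm (hu g), map_sub, ← mul_apply_eq_comp, (Unitary.mem_iff.1 (hu g)).2,
        one_apply_eq_self, norm_sub_rev]
    have h4 := congrArg Complex.re (var_sum (hu g) (θ - θ₀) θ₀)
    have h5 := re_inner_le (T g θ₀ - θ₀) (T g θ - θ)
    have h6 : T g (θ - θ₀) - (θ - θ₀) = T g θ - θ - (T g θ₀ - θ₀) := by rw [map_sub]; abel
    rw [h6, Complex.add_re, Complex.neg_re, ← inner_conj_symm (T g θ - θ - _),
      Complex.conj_re] at h4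
    rw [h3] at h2
    refine abs_le_of_sq_le_sq' ?_ (by positivity) |>.2
    have h7 := mul_le_mul_of_nonneg_left h5 (sq_nonneg R)
    have h8 : R ^ 2 * (⟪θ - θ₀, T g θ₀ - θ₀⟫_ℂ).re + R ^ 2 * (⟪θ - θ₀, star (T g) θ₀ - θ₀⟫_ℂ).re =
        -(R ^ 2 * (⟪T g θ₀ - θ₀, T g θ - θ - (T g θ₀ - θ₀)⟫_ℂ).re) := by
      rw [← mul_add, h4]; ring
    nlinarith [mul_nonneg (sq_nonneg R) (sq_nonneg ‖T g θ - θ‖)]
  · have h1 := hd W fun g => by
      obtain ⟨k, hk⟩ := hWT g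
      exact ⟨k, by rw [← mul_apply_eq_comp, hk, mul_apply_eq_comp, hξ],
        by rw [← mul_apply_eq_comp, hk, mul_apply_eq_comp, hθ]⟩
    have h2 : W θ₀ - θ₀ = -(W (θ - θ₀) - (θ - θ₀)) := by rw [map_sub, hθ]; abel
    rw [h2, inner_neg_right, Complex.neg_re, re_inner_sub (unitary_norm hW ξ₀),
      re_inner_sub (unitary_norm hW (θ - θ₀))] at h1
    have h3 : ‖W ξ₀ - ξ₀‖ ^ 2 = 0 := by
      nlinarith [mul_nonneg (sq_nonneg R) (sq_nonneg ‖W (θ - θ₀) - (θ - θ₀)‖),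
        sq_nonneg ‖W ξ₀ - ξ₀‖]
    simpa [sub_eq_zero] using h3

/-- Let `S` be the closed convex set of pairs `a, b` with `‖a‖ ≤ ‖ξ‖` and
`2 re ⟪ξ - a, ξ⟫ ≤ α + 2 K re ⟪θ - b, θ⟫`, and `Q` the set of pairs `a, b` such that
`T g a, T g b` is in `S` for all `g`. `Q` is closed, convex, invariant, and contains `ξ, θ`.
Minimize `‖a‖ ^ 2 + R ^ 2 ‖b - θ‖ ^ 2` over `Q`. The first order condition at `T g ξ₀, T g θ₀`
and `T g* ξ₀, T g* θ₀`, added up, reads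
`‖T g ξ₀ - ξ₀‖ ^ 2 ≤ R ^ 2 (re ⟪T g θ₀ - θ₀, T g θ - θ⟫ - ‖T g θ₀ - θ₀‖ ^ 2)`, which is at most
`R ^ 2 ‖T g θ - θ‖ ^ 2 / 4`. -/
theorem var {G : Type u} (T : G → Op H) (hu : ∀ g, T g ∈ unitary (Op H)) (h1 : ∃ g, T g = 1)
    (hmul : ∀ g h, ∃ k, T k = T g * T h) (hstar : ∀ g, ∃ k, T k = star (T g)) (ξ θ : H)
    {R α K : ℝ} (hR : 0 < R) (hK : 0 ≤ K)
    (h : ∀ g, ‖T g ξ - ξ‖ ^ 2 ≤ α + K * ‖T g θ - θ‖ ^ 2) : ∃ ξ₀ : H,
      ‖ξ₀ - ξ‖ ^ 2 ≤ α + 2 * K * ‖θ‖ * (‖ξ‖ / R) ∧ ∀ g, ‖T g ξ₀ - ξ₀‖ ≤ R * ‖T g θ - θ‖ := by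
  obtain ⟨ξ₀, θ₀, ha, hb, hc, -⟩ := var_cvx T hu h1 hmul hstar ξ θ hR
  refine ⟨ξ₀, ?_, hc⟩
  have hg : ∀ g, -2 * (⟪ξ, T g ξ - ξ⟫_ℂ).re ≤ α + K * (-2 * (⟪θ, T g θ - θ⟫_ℂ).re) := fun g => by
    rw [re_inner_sub (unitary_norm (hu g) ξ), re_inner_sub (unitary_norm (hu g) θ)]
    linarith [h g]
  have hs : ∀ (x : H) (n : ℕ) (l : Fin n → ℝ) (g : Fin n → G), ∑ i, l i = 1 →
      (⟪x, ∑ i, (l i : ℂ) • T (g i) x - x⟫_ℂ).re = ∑ i, l i * (⟪x, T (g i) x - x⟫_ℂ).re := by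
    intro x n l g hl
    have : ∑ i, (l i : ℂ) • T (g i) x - x = ∑ i, (l i : ℂ) • (T (g i) x - x) := by
      simp only [smul_sub, Finset.sum_sub_distrib, ← Finset.sum_smul, ← Complex.ofReal_sum, hl,
        Complex.ofReal_one, one_smul]
    rw [this, inner_sum, Complex.re_sum]
    exact Finset.sum_congr rfl fun i _ => by rw [inner_smul_right, Complex.re_ofReal_mul]
  have hlip : ∀ x y z : H, |(⟪x, y - x⟫_ℂ).re - (⟪x, z - x⟫_ℂ).re| ≤ ‖x‖ * ‖y - z‖ := by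
    intro x y z
    rw [← Complex.sub_re, ← inner_sub_right, sub_sub_sub_cancel_right]
    exact (Complex.abs_re_le_norm _).trans (norm_inner_le_norm _ _)
  have e1 : ‖ξ₀‖ ≤ ‖ξ‖ := by
    refine le_of_forall_pos_le_add fun ε hε => ?_
    obtain ⟨n, l, g, h0, hl, h2, -⟩ := ha ε hε
    have h3 : ‖∑ i, (l i : ℂ) • T (g i) ξ‖ ≤ ‖ξ‖ := by
      refine (norm_sum_le _ _).trans (le_of_eq ?_)
      simp only [norm_smul, Complex.norm_real, Real.norm_of_nonneg (h0 _), unitary_norm (hu _),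
        ← Finset.sum_mul, hl, one_mul]
    have h4 := norm_sub_norm_le ξ₀ (∑ i, (l i : ℂ) • T (g i) ξ)
    rw [norm_sub_rev] at h4
    linarith
  have e2 : -2 * (⟪ξ, ξ₀ - ξ⟫_ℂ).re ≤ α + K * (-2 * (⟪θ, θ₀ - θ⟫_ℂ).re) := by
    refine le_of_forall_pos_le_add fun ε hε => ?_
    have hp : 0 < 2 * ‖ξ‖ + 2 * K * ‖θ‖ + 1 := by positivity
    obtain ⟨n, l, g, h0, hl, h2, h3⟩ := ha (ε / (2 * ‖ξ‖ + 2 * K * ‖θ‖ + 1)) (div_pos hε hp)
    set δ := ε / (2 * ‖ξ‖ + 2 * K * ‖θ‖ + 1) with hδ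
    have hδ' : δ * (2 * ‖ξ‖ + 2 * K * ‖θ‖ + 1) = ε := div_mul_cancel₀ _ hp.ne'
    have hδ0 : 0 < δ := div_pos hε hp
    have h4 := (abs_le.1 ((hlip ξ _ ξ₀).trans (mul_le_mul_of_nonneg_left h2 (norm_nonneg _)))).2
    have h5 := (abs_le.1 ((hlip θ _ θ₀).trans (mul_le_mul_of_nonneg_left h3 (norm_nonneg _)))).1
    rw [hs ξ n l g hl] at h4
    rw [hs θ n l g hl] at h5
    have h6 : -2 * ∑ i, l i * (⟪ξ, T (g i) ξ - ξ⟫_ℂ).re ≤
        α + K * (-2 * ∑ i, l i * (⟪θ, T (g i) θ - θ⟫_ℂ).re) := by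
      have := Finset.sum_le_sum fun i (_ : i ∈ Finset.univ) =>
        mul_le_mul_of_nonneg_left (hg (g i)) (h0 i)
      simp only [mul_add, Finset.sum_add_distrib, ← Finset.sum_mul, hl, one_mul] at this
      simp only [Finset.mul_sum]
      refine le_of_eq_of_le (Finset.sum_congr rfl fun i _ => by ring) (this.trans (le_of_eq ?_))
      exact congrArg _ (Finset.sum_congr rfl fun i _ => by ring)
    have h7 := mul_le_mul_of_nonneg_left h5 hK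
    nlinarith
  have e3 : -(⟪θ, θ₀ - θ⟫_ℂ).re ≤ ‖θ‖ * (‖ξ‖ / R) := by
    have h2 : ‖θ₀ - θ‖ ≤ ‖ξ‖ / R := by rw [le_div_iff₀ hR, mul_comm]; exact hb
    exact (neg_le_abs _).trans ((Complex.abs_re_le_norm _).trans ((norm_inner_le_norm _ _).trans
      (mul_le_mul_of_nonneg_left h2 (norm_nonneg _))))
  have e4 := norm_sub_sq (𝕜 := ℂ) ξ ξ₀
  have e5 : (⟪ξ, ξ₀ - ξ⟫_ℂ).re = (⟪ξ, ξ₀⟫_ℂ).re - ‖ξ‖ ^ 2 := by
    rw [inner_sub_right, Complex.sub_re, inner_self_eq_norm_sq_to_K]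
    simp only [Complex.coe_algebraMap, ← Complex.ofReal_pow, Complex.ofReal_re]
  rw [RCLike.re_to_complex, norm_sub_rev] at e4
  have e6 := pow_le_pow_left₀ (norm_nonneg _) e1 2
  have e7 := mul_le_mul_of_nonneg_left e3 hK
  nlinarith

end Vale.Agent.P132b
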