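import Vale.Agent.P132b.Zero1

/-! Vectors of frequency zero with a spectral gap. -/

set_option linter.unusedSectionVars false

namespace Vale.Agent.P132b

open Filter Topology Vale.Agent.P096 Vale.Agent.P096b MeasureTheory
open scoped InnerProductSpace ComplexConjugate

universe u

variable {H : Type u} [NormedAddCommGroup H] [InnerProductSpace ℂ H] [CompleteSpace H]

variable {A B : Alg H} {η : H} (μ : Mod A B η)

theorem zero_spec {z : Op H} (hz : Cen μ z) {t : ℝ} (ht : 0 < t) : ∃ e, Cen μ e ∧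
    IsStarProjection e ∧ (∀ θ, t * ‖e θ‖ ≤ ‖z (e θ)‖) ∧ ‖z * (1 - e)‖ ≤ t := by
  obtain ⟨e, h1, h2, -, h3, h4⟩ := tl_spec z t ht
  have h5 := hz.star.mul hz
  exact ⟨e, ⟨(μ.cp.left e).2 fun y hy => (h2 y ((μ.cp.left _).1 h5.1 y hy).symm).symm,
    fun s => h2 _ (h5.2 s)⟩, h1, h3, h4⟩

/-- For `β < α < ‖z‖` let `e`, `e'` be the projections of `tl_spec z α` and `tl_spec z' β`; they
are in the centralizer and `e ≠ 0`. If `f = 1 - e' ≠ 0` take `c = e c f` from `LE`; then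
`‖z c η‖ ≥ α ‖c η‖` and `c z' η = rt (z' ) (c η)`; replace the role of `z'` by using
`c z' η = rt z' (c η) = rt (f z') (c η)`. So apply `tl_spec` to `star z'` rather than `z'`:
`‖star z' (1 - e')‖ ≤ β` gives `‖f z'‖ ≤ β`, contradiction for small `ε`. Hence `e' = 1`. -/
theorem norm_cmp (hL : LE μ) {z z' : Op H} (hz : Cen μ z) (hz' : Cen μ z') {m C : ℝ}
    (hm : 0 < m) (h : ∀ c ∈ A, ‖z (c η) - c (z' η)‖ ≤ C * ‖(m : ℂ) • c η - rt μ c η‖) (θ : H) :
    ‖z‖ * ‖θ‖ ≤ ‖star z' θ‖ := by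
  by_contra hn
  rw [not_le] at hn
  have θ0 : 0 < ‖θ‖ := by
    rcases (norm_nonneg θ).eq_or_lt with h0 | h0
    · rw [← h0, mul_zero] at hn
      exact absurd hn (not_lt.2 (norm_nonneg _))
    · exact h0
  rw [← div_lt_iff₀ θ0] at hn
  obtain ⟨β, b1, b2⟩ := exists_between hn
  obtain ⟨α, a1, a2⟩ := exists_between b2
  have β0 : 0 < β := lt_of_le_of_lt (by positivity) b1
  rw [div_lt_iff₀ θ0] at b1
  obtain ⟨e, e1, e2, e3, e4⟩ := zero_spec μ hz (β0.trans a1)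
  obtain ⟨e', f1, f2, f3, f4⟩ := zero_spec μ hz'.star β0
  have e0 : e ≠ 0 := fun e0 => by
    rw [e0, sub_zero, mul_one] at e4
    linarith
  have f0 : 1 - e' ≠ 0 := fun f0 => by
    have := f3 θ
    rw [← sub_eq_zero.1 f0, one_apply_eq_self] at this
    linarith
  have fc : Cen μ (1 - e') := Cen.one.sub f1
  have C0 : 0 < |C| + 1 := by positivity
  obtain ⟨c, cA, c0, c1, c2, c3⟩ := hL e (1 - e') e1 fc e2 f2.one_sub e0 f0 m
    ((α - β) / (2 * (|C| + 1))) hm (div_pos (sub_pos.2 a1) (by positivity))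
  have n0 : 0 < ‖c η‖ := norm_pos_iff.2 fun h0 => c0 (μ.sepA cA h0)
  have k1 := e3 (c η)
  rw [← mul_apply_eq_comp e c, c1] at k1
  have k2 : c (z' η) = rt μ ((1 - e') * z') (c η) := by
    have := (fc.mul hz').rt
    rw [← rt_comm μ cA (fc.mul hz').1, this, ← mul_apply_eq_comp c (_ * _), ← mul_assoc, c2,
      mul_apply_eq_comp]
  have k3 : ‖c (z' η)‖ ≤ β * ‖c η‖ := by
    rw [k2]
    refine ContinuousLinearMap.le_of_opNorm_le _ ?_ _
    rw [rt_norm, ← norm_star, star_mul, f2.one_sub.isSelfAdjoint.star_eq]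
    exact f4
  have k4 := norm_sub_norm_le (z (c η)) (c (z' η))
  have k5 := (h c cA).trans ((mul_le_mul_of_nonneg_right
    ((le_abs_self C).trans (le_add_of_nonneg_right zero_le_one)) (norm_nonneg _)).trans
    (mul_le_mul_of_nonneg_left c3 C0.le))
  have k6 : (|C| + 1) * ((α - β) / (2 * (|C| + 1)) * ‖c η‖) = (α - β) / 2 * ‖c η‖ := by
    field_simp
  rw [k6] at k5
  nlinarith

/-- If `‖r + w‖ ‖θ‖ ≤ ‖(r + w)* θ‖` for all scalars `w` then `r` is a scalar: equality holds, so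
`‖r* θ + w θ‖` does not depend on the unit vector `θ`; use `w = 0, 1, i` and `ext_inner_self`. -/
theorem scalar_of_cmp {r : Op H}
    (h : ∀ (w : ℂ) (θ : H), ‖r + w • 1‖ * ‖θ‖ ≤ ‖star (r + w • 1) θ‖) : ∃ c : ℂ, r = c • 1 := by
  have h1 : ∀ (w : ℂ) (θ : H), ‖star r θ‖ ^ 2 + 2 * (conj w * ⟪θ, r θ⟫_ℂ).re +
      ‖w‖ ^ 2 * ‖θ‖ ^ 2 = ‖r + w • 1‖ ^ 2 * ‖θ‖ ^ 2 := fun w θ => by
    have k1 := ContinuousLinearMap.le_opNorm (star (r + w • 1)) θ
    rw [norm_star] at k1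
    rw [← mul_pow, ← mul_pow, le_antisymm (h w θ) k1, star_add, star_smul, star_one, add_apply,
      smul_apply, one_apply_eq_self, norm_add_sq (𝕜 := ℂ), inner_smul_right, tl_inner',
      norm_smul, norm_star]
    rfl
  refine ⟨⟨(‖r + (1 : ℂ) • 1‖ ^ 2 - ‖r + (0 : ℂ) • 1‖ ^ 2 - 1) / 2,
    (‖r + Complex.I • 1‖ ^ 2 - ‖r + (0 : ℂ) • 1‖ ^ 2 - 1) / 2⟩, ext_inner_self fun θ => ?_⟩
  have k0 := h1 0 θ
  have k1 := h1 1 θ
  have k2 := h1 Complex.I θ
  rw [map_zero, zero_mul, norm_zero, Complex.zero_re] at k0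
  rw [map_one, one_mul, norm_one] at k1
  rw [Complex.conj_I, Complex.norm_I, neg_mul, Complex.neg_re, Complex.I_mul_re, neg_neg] at k2
  have e : ⟪θ, θ⟫_ℂ = ((‖θ‖ ^ 2 : ℝ) : ℂ) := by
    rw [inner_self_eq_norm_sq_to_K, Complex.ofReal_pow]
    rfl
  rw [smul_apply, one_apply_eq_self, inner_smul_right, e]
  refine Complex.ext ?_ ?_
  · rw [Complex.re_mul_ofReal]
    linarith
  · rw [Complex.im_mul_ofReal]
    linarith

/-- Let `r i` be the resolvent of `ζ i / m i`. With `X = c ζ j - rt c (ζ i)` and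
`Y = m j c η - m i rt c η` one has
`m j (r i c η - c r j η) = r i (rt (r j) X) - rt (r j) Y + i r i (rt (r j) Y)`.
So `norm_cmp` applies to `r i + w`, `r j + w` with `m = m j / m i`: the `r i` are scalars
(`i = j`), equal to each other (`w = - r j`), and not zero as `η ≠ 0`. -/
theorem zero_gen (hL : LE μ) (hη : η ≠ 0) {ι : Type} [Nonempty ι] (ζ : ι → H) (m : ι → ℝ)
    (hm : ∀ i, 0 < m i) (hU : ∀ i t, μ.U t (ζ i) = ζ i) (hJ : ∀ i, μ.J (ζ i) = ζ i) {R : ℝ}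
    (h : ∀ i j, ∀ c ∈ A, ‖c (ζ j) - rt μ c (ζ i)‖ ≤
      R * ‖(m j : ℂ) • c η - (m i : ℂ) • rt μ c η‖) :
    ∃ t : ℂ, ∀ i, ζ i = (t * m i) • η := by
  have m0 : ∀ i, (m i : ℂ) ≠ 0 := fun i => Complex.ofReal_ne_zero.2 (hm i).ne'
  obtain ⟨ω, hω⟩ : ∃ ω : ι → H, ∀ i, ω i = (((m i)⁻¹ : ℝ) : ℂ) • ζ i := ⟨_, fun _ => rfl⟩
  have hζ : ∀ i, ζ i = (m i : ℂ) • ω i := fun i => by
    rw [hω, smul_smul, Complex.ofReal_inv, mul_inv_cancel₀ (m0 i), one_smul]
  choose r r1 r2 r3 r4 using fun i => vec_resolv μ (ζ := ω i)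
    (fun t => by rw [hω, map_smul, hU]) (by rw [hω, map_smulₛₗ, hJ, Complex.conj_ofReal])
  have key : ∀ i j, ∀ c ∈ A, ‖r i (c η) - c (r j η)‖ ≤
      (R + 2) * m i / m j * ‖((m j / m i : ℝ) : ℂ) • c η - rt μ c η‖ := fun i j c hc => by
    have k := h i j c hc
    have e0 : (m j : ℂ) • c η - (m i : ℂ) • rt μ c η =
        (m i : ℂ) • (((m j / m i : ℝ) : ℂ) • c η - rt μ c η) := by
      rw [smul_sub, smul_smul, Complex.ofReal_div, mul_div_cancel₀ _ (m0 i)]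
    have e1 : (m j : ℂ) • (r i (c η) - c (r j η)) =
        r i (rt μ (r j) (c (ζ j) - rt μ c (ζ i))) -
          rt μ (r j) ((m j : ℂ) • c η - (m i : ℂ) • rt μ c η) +
          Complex.I • r i (rt μ (r j) ((m j : ℂ) • c η - (m i : ℂ) • rt μ c η)) := by
      have a1 : ∀ θ, r i (rt μ (r j) (rt μ c θ)) = rt μ (r j) (rt μ c (r i θ)) := fun θ => by
        rw [rt_comm μ (r1 i).1 (r1 j).1, rt_comm μ (r1 i).1 hc]
      rw [hζ i, hζ j]
      simp only [map_sub, map_smul, a1, r3, ← rt_comm μ hc (r1 j).1, r4, (r1 j).rt]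
      module
    have n1 : ∀ θ, ‖r i θ‖ ≤ ‖θ‖ := fun θ => by
      simpa using ContinuousLinearMap.le_of_opNorm_le _ (r2 i) θ
    have n2 : ∀ θ, ‖rt μ (r j) θ‖ ≤ ‖θ‖ := fun θ => by
      simpa using ContinuousLinearMap.le_of_opNorm_le _ ((rt_norm μ (r j)).trans_le (r2 j)) θ
    have e2 := congrArg norm e1
    rw [norm_smul, Complex.norm_real, Real.norm_of_nonneg (hm j).le] at e2
    generalize c (ζ j) - rt μ c (ζ i) = X at k e2
    have e3 := congrArg norm e0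
    rw [norm_smul, Complex.norm_real, Real.norm_of_nonneg (hm i).le] at e3
    generalize (m j : ℂ) • c η - (m i : ℂ) • rt μ c η = Y at k e2 e3
    have k1 := norm_add_le (r i (rt μ (r j) X) - rt μ (r j) Y)
      (Complex.I • r i (rt μ (r j) Y))
    have k2 := norm_sub_le (r i (rt μ (r j) X)) (rt μ (r j) Y)
    rw [norm_smul, Complex.norm_I, one_mul] at k1
    rw [div_mul_eq_mul_div, le_div_iff₀ (hm j), mul_assoc, ← e3]
    linarith [n1 (rt μ (r j) X), n1 (rt μ (r j) Y), n2 X, n2 Y]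
  have cmp : ∀ i j (w : ℂ) θ, ‖r i + w • 1‖ * ‖θ‖ ≤ ‖star (r j + w • 1) θ‖ := fun i j w θ => by
    refine norm_cmp μ hL ((r1 i).add (Cen.one.smul w)) ((r1 j).add (Cen.one.smul w))
      (div_pos (hm j) (hm i)) (C := (R + 2) * m i / m j) (fun c hc => ?_) θ
    simp only [add_apply, smul_apply, one_apply_eq_self, map_add, map_smul,
      add_sub_add_right_eq_sub]
    exact key i j c hc
  obtain ⟨j⟩ := ‹Nonempty ι›
  obtain ⟨s, hs⟩ := scalar_of_cmp (cmp j j)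
  have rs : ∀ i, r i = s • 1 := fun i => by
    have := cmp i j (-s) η
    rw [hs, neg_smul, add_neg_cancel, star_zero, zero_apply, norm_zero] at this
    have k := nonpos_of_mul_nonpos_left this (norm_pos_iff.2 hη)
    rwa [norm_le_zero_iff, add_neg_eq_zero] at k
  simp only [rs, smul_apply, one_apply_eq_self] at r3
  have s0 : s ≠ 0 := fun s0 => by
    have := r3 j
    rw [s0, zero_smul, zero_smul, smul_zero, sub_zero] at this
    exact hη this.symm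
  refine ⟨s⁻¹ * (1 - Complex.I * s), fun i => ?_⟩
  rw [hζ, ← inv_smul_smul₀ s0 (ω i), r3]
  module

/-- The case of one vector. -/
theorem zero_freq (hL : LE μ) (hη : η ≠ 0) {ζ : H} (hU : ∀ t, μ.U t ζ = ζ) (hJ : μ.J ζ = ζ)
    {R : ℝ} (h : Gap μ R ζ η) : ∃ t : ℂ, ζ = t • η := by
  obtain ⟨t, ht⟩ := zero_gen μ hL hη (ι := Unit) (fun _ => ζ) (fun _ => 1)
    (fun _ => one_pos) (fun _ => hU) (fun _ => hJ)
    (R := R) fun _ _ c hc => by simpa [ad_apply] using h c hc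
  exact ⟨_, ht ()⟩

end Vale.Agent.P132b
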