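import Vale.Agent.P132b.Meas

/-! Bump functions with integrable Fourier kernels. -/

set_option linter.unusedSectionVars false

namespace Vale.Agent.P132b

open Filter Topology Vale.Agent.P096 Vale.Agent.P096b MeasureTheory
open scoped InnerProductSpace ComplexConjugate

universe u

variable {H : Type u} [NormedAddCommGroup H] [InnerProductSpace ℂ H] [CompleteSpace H]

/-- Take a `ContDiffBump (0 : ℝ)` with radii `1, 2`, view it as a complex Schwartz function (or use
`Continuous.fourier_inversion` with integrability of the Fourier transform of a smooth compactly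
supported function), and rescale the Fourier transform to the normalization of `ft`. -/
theorem bump0 : ∃ k : ℝ → ℂ, Integrable k ∧ (∀ κ, ‖ft k κ‖ ≤ 1) ∧
    (∀ κ, |κ| ≤ 1 → ft k κ = 1) ∧ ∀ κ, 2 ≤ |κ| → ft k κ = 0 := by
  have hp : 0 < 2 * Real.pi := by positivity
  let b : ContDiffBump (0 : ℝ) :=
    ⟨1 / (2 * Real.pi), 2 / (2 * Real.pi), by positivity,
      div_lt_div_of_pos_right (by linarith) hp⟩
  let B : SchwartzMap ℝ ℂ := (b.hasCompactSupport.comp_left Complex.ofReal_zero).toSchwartzMap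
    (Complex.ofRealCLM.contDiff.comp b.contDiff)
  have h1 : Integrable (FourierTransform.fourier (B : ℝ → ℂ)) :=
    (FourierTransform.fourier B).integrable
  have h2 : ∀ κ, ft (FourierTransform.fourier (B : ℝ → ℂ)) κ = (b (κ / (2 * Real.pi)) : ℝ) :=
    fun κ => by
      have h3 := B.integrable.fourierInv_fourier_eq h1 (v := κ / (2 * Real.pi))
        B.continuous.continuousAt
      rw [Real.fourierInv_eq'] at h3
      refine Eq.trans (integral_congr_ae (Eventually.of_forall fun t => ?_)) h3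
      have e : 2 * Real.pi * ⟪t, κ / (2 * Real.pi)⟫_ℝ = t * κ := by
        simp only [RCLike.inner_apply, conj_trivial]
        field_simp
      simp only [e, ex, smul_eq_mul]
      push_cast
      rw [mul_comm, mul_comm _ Complex.I, mul_assoc]
  have h4 : ∀ κ, dist (κ / (2 * Real.pi)) 0 = |κ| / (2 * Real.pi) :=
    fun κ => by rw [Real.dist_eq, sub_zero, abs_div, abs_of_pos hp]
  refine ⟨_, h1, fun κ => ?_, fun κ h => ?_, fun κ h => ?_⟩
  · rw [h2, Complex.norm_real, Real.norm_of_nonneg b.nonneg]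
    exact b.le_one
  · rw [h2, b.one_of_mem_closedBall (by
      rw [Metric.mem_closedBall, h4]; exact div_le_div_of_nonneg_right h hp.le)]
    simp
  · rw [h2, b.zero_of_le_dist (by rw [h4]; exact div_le_div_of_nonneg_right h hp.le),
      Complex.ofReal_zero]

/-- Rescaling: `k t = δ * k₀ (δ * t) * ex (-κ₀) t` has `ft k κ = ft k₀ ((κ - κ₀) / δ)`
(`Measure.integral_comp_mul_left`). -/
theorem bump : ∃ C : ℝ, 0 ≤ C ∧ ∀ κ₀ δ : ℝ, 0 < δ → ∃ k : ℝ → ℂ, Integrable k ∧
    ∫ t, ‖k t‖ ≤ C ∧ (∀ κ, ‖ft k κ‖ ≤ 1) ∧ (∀ κ, |κ - κ₀| ≤ δ → ft k κ = 1) ∧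
      ∀ κ, 2 * δ ≤ |κ - κ₀| → ft k κ = 0 := by
  obtain ⟨k, k1, k2, k3, k4⟩ := bump0
  refine ⟨∫ t, ‖k t‖, integral_nonneg fun _ => norm_nonneg _, fun κ₀ δ hδ => ?_⟩
  have i1 : Integrable fun t => k (δ * t) := k1.comp_mul_left' hδ.ne'
  have nn : ∀ t, ‖(δ : ℂ) * k (δ * t) * ex t (-κ₀)‖ = δ * ‖k (δ * t)‖ := fun t => by
    rw [norm_mul, norm_mul, norm_ex, mul_one, Complex.norm_real, Real.norm_of_nonneg hδ.le]
  have e : ∀ κ, ft (fun t => (δ : ℂ) * k (δ * t) * ex t (-κ₀)) κ = ft k ((κ - κ₀) / δ) :=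
    fun κ => by
      have := Measure.integral_comp_mul_left (fun t => k t * ex t ((κ - κ₀) / δ)) δ
      rw [abs_of_pos (inv_pos.2 hδ)] at this
      have e2 : ∀ t, (δ : ℂ) * k (δ * t) * ex t (-κ₀) * ex t κ =
          (δ : ℂ) * (k (δ * t) * ex (δ * t) ((κ - κ₀) / δ)) := fun t => by
        have : ex t (-κ₀) * ex t κ = ex (δ * t) ((κ - κ₀) / δ) := by
          rw [← ex_add']
          unfold ex
          congr 1
          have : (δ : ℂ) ≠ 0 := by exact_mod_cast hδ.ne'
          push_cast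
          field_simp
          ring
        rw [mul_assoc, this, mul_assoc]
      unfold ft
      simp only [e2]
      rw [integral_const_mul, this, Complex.real_smul, ← mul_assoc, ← Complex.ofReal_mul,
        mul_inv_cancel₀ hδ.ne', Complex.ofReal_one, one_mul]
  have ab : ∀ κ, |(κ - κ₀) / δ| = |κ - κ₀| / δ := fun κ => by rw [abs_div, abs_of_pos hδ]
  refine ⟨fun t => (δ : ℂ) * k (δ * t) * ex t (-κ₀), ?_, ?_, fun κ => ?_, fun κ h => ?_,
    fun κ h => ?_⟩
  · refine (i1.const_mul _).mul_bdd (c := 1) ?_ (Eventually.of_forall fun t => (norm_ex _ _).le)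
    exact Continuous.aestronglyMeasurable (by unfold ex; fun_prop)
  · simp only [nn]
    rw [integral_const_mul, Measure.integral_comp_mul_left (fun t => ‖k t‖) δ,
      abs_of_pos (inv_pos.2 hδ), smul_eq_mul, ← mul_assoc, mul_inv_cancel₀ hδ.ne', one_mul]
  · rw [e]; exact k2 _
  · rw [e]; exact k3 _ (by rw [ab]; exact (div_le_one hδ).2 h)
  · rw [e]; exact k4 _ (by rw [ab]; exact (le_div_iff₀ hδ).2 h)

end Vale.Agent.P132b
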