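import Vale.Agent.P132b.Var
import Vale.Agent.P132b.Inf
import Vale.Agent.P132b.Zero
import Vale.Agent.P132b.Freq
import Vale.Agent.P132.Work

/-! The theorem in standard form. -/

set_option linter.unusedSectionVars false

namespace Vale.Agent.P132b

open Filter Topology Vale.Agent.P096 Vale.Agent.P096b MeasureTheory
open scoped InnerProductSpace ComplexConjugate

universe u

variable {H : Type u} [NormedAddCommGroup H] [InnerProductSpace ℂ H] [CompleteSpace H]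

variable {A B : Alg H} {η : H} (μ : Mod A B η)

theorem pc_proj {e : Op H} (he : IsStarProjection e) : P132.Pc e := by
  refine ⟨he.isSelfAdjoint.star_eq, fun θ => ?_⟩
  have h1 := tl_norm_sq e θ
  rw [he.isSelfAdjoint.star_eq, he.isIdempotentElem.eq] at h1
  rw [← h1]
  refine ⟨by positivity, pow_le_pow_left₀ (norm_nonneg _) ?_ 2⟩
  simpa using e.le_of_opNorm_le he.norm_le θ

theorem dfc_eq {m : ℝ} (hm : 0 < m) (c : Op H) :
    ‖(m : ℂ) • c η - rt μ c η‖ = m * ‖P132.dfc μ (2 * Real.log m) c‖ := by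
  have e : Real.exp (-(2 * Real.log m) / 2) = m⁻¹ := by
    rw [show -(2 * Real.log m) / 2 = -Real.log m by ring, Real.exp_neg, Real.exp_log hm]
  have : (m : ℂ) • c η - rt μ c η = (m : ℂ) • P132.dfc μ (2 * Real.log m) c := by
    rw [P132.dfc, e, smul_sub, smul_smul, ← Complex.ofReal_mul, mul_inv_cancel₀ hm.ne',
      Complex.ofReal_one, one_smul, rt_η]
  rw [this, norm_smul, Complex.norm_real, Real.norm_of_nonneg hm.le]

theorem le_of_gam (h : P132.Gam μ) : LE μ := by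
  intro e f he hf pe pf e0 f0 m ε hm hε
  obtain ⟨x, hx, h1, h2⟩ := h e f he hf (pc_proj pe) (pc_proj pf) e0 f0 (2 * Real.log m)
    ((ε / m) ^ 2) (by positivity)
  refine ⟨e * x * f, mul_mem (mul_mem he.1 hx) hf.1, h1, ?_, ?_, ?_⟩
  · rw [← mul_assoc, ← mul_assoc, pe.isIdempotentElem.eq]
  · rw [mul_assoc, pf.isIdempotentElem.eq]
  · rw [← mul_pow] at h2
    have h3 := (abs_le_of_sq_le_sq' h2 (by positivity)).2
    rw [dfc_eq μ hm]
    calc m * _ ≤ m * (ε / m * ‖(e * x * f) η‖) := mul_le_mul_of_nonneg_left h3 hm.le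
      _ = _ := by field_simp

theorem fam_of_erel (hη : ‖η‖ = 1) (h : P132.ERel μ) (m : ℝ) (h0 : 0 < m) (h1 : m ≤ 1) :
    Fam μ m := by
  intro ε hε
  have one : ∀ θ : H, (⟪θ, (1 : Op H) θ⟫_ℂ).re = ‖θ‖ ^ 2 := fun θ =>
    inner_self_eq_norm_sq (𝕜 := ℂ) θ
  have p1 := pc_proj (IsStarProjection.one (R := Op H))
  obtain ⟨ι, _, v, k1, k2, k3⟩ := h 1 1 Cen.one Cen.one p1 p1 (2 * Real.log m) ε hε
  refine ⟨ι, inferInstance, v, k1.mem, ?_, fun θ => ?_, fun θ => ?_, ?_⟩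
  · refine le_trans (Finset.sum_le_sum fun k _ => ?_) k2
    rw [dfc_eq μ h0]
    exact pow_le_pow_left₀ (by positivity) (mul_le_of_le_one_left (norm_nonneg _) h1) 2
  · simpa only [one] using k1.col θ
  · have k4 := k1.row θ
    rw [one] at k4
    refine le_trans (le_mul_of_one_le_left (by positivity) (Real.one_le_exp ?_)) k4
    linarith [Real.log_nonpos h0.le h1]
  · simpa only [one, hη, min_self, one_pow] using k3

theorem Gap.comb {R : ℝ} {ζ ζ' : H} (h : Gap μ R ζ η) (h' : Gap μ R ζ' η) {a b : ℂ}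
    (ha : ‖a‖ ≤ 1) (hb : ‖b‖ ≤ 1) : Gap μ (2 * R) (a • ζ + b • ζ') η := by
  intro c hc
  rw [map_add, map_smul, map_smul]
  refine (norm_add_le _ _).trans ?_
  rw [norm_smul, norm_smul]
  have k1 := mul_le_of_le_one_left (norm_nonneg (ad μ c ζ)) ha
  have k2 := mul_le_of_le_one_left (norm_nonneg (ad μ c ζ')) hb
  linarith [h c hc, h' c hc]

theorem gap_scalar (hL : LE μ) (hη : ‖η‖ = 1) (hF : ∀ m : ℝ, 0 < m → m ≤ 1 → Fam μ m) {R : ℝ}
    (hR : 0 ≤ R) {ζ : H} (h : Gap μ R ζ η) : ∃ c : ℂ, ζ = c • η := by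
  have h0 : η ≠ 0 := fun e => by simp [e] at hη
  have g1 := Gap.comb μ h (Gap.J μ h) (a := 1) (b := 1) (by simp) (by simp)
  have g2 := Gap.comb μ h (Gap.J μ h) (a := Complex.I) (b := -Complex.I) (by simp) (by simp)
  obtain ⟨s, hs⟩ := zero_freq μ hL h0 (gap_fix μ hη hF (by positivity) g1) (by
    simp only [one_smul, map_add, μ.JJ, add_comm]) g1
  obtain ⟨t, ht⟩ := zero_freq μ hL h0 (gap_fix μ hη hF (by positivity) g2) (by
    simp [map_smulₛₗ, μ.JJ, add_comm]) g2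
  refine ⟨(s - Complex.I * t) / 2, ?_⟩
  have e : ζ = (1 / 2 : ℂ) • (((1 : ℂ) • ζ + (1 : ℂ) • μ.J ζ) -
      Complex.I • (Complex.I • ζ + -Complex.I • μ.J ζ)) := by
    rw [smul_add, smul_smul, smul_smul, mul_neg, Complex.I_mul_I]
    module
  rw [e, hs, ht]
  module

theorem core (hL : LE μ) (hη : ‖η‖ = 1) (hF : ∀ m : ℝ, 0 < m → m ≤ 1 → Fam μ m) {x : Op H}
    (hx : x ∈ A) (h : ∀ ε : ℝ, 0 < ε → ∃ δ : ℝ, 0 < δ ∧ ∀ u ∈ unitary (Op H), u ∈ A →
      ‖ad μ u η‖ ≤ δ → ‖(u * x - x * u) η‖ ≤ ε) : ∃ c : ℂ, x = c • 1 := by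
  have key : ∀ ε : ℝ, 0 < ε → ∃ c : ℂ, ‖c • η - x η‖ ^ 2 ≤ 2 * ε ^ 2 := by
    intro ε hε
    obtain ⟨δ, hδ, h⟩ := h (ε / 2) (by positivity)
    set δ' := min δ (ε / (2 * (‖x‖ + 1))) with hδ'
    have d0 : 0 < δ' := lt_min hδ (by positivity)
    set K := 4 * ‖x η‖ ^ 2 / δ' ^ 2 with hK
    have K0 : 0 ≤ K := by positivity
    set R := (2 * K * ‖x η‖ + 1) / ε ^ 2 with hR
    have R0 : 0 < R := by positivity
    obtain ⟨ζ, k1, k2⟩ := var (G := {u : Op H // u ∈ A ∧ u ∈ unitary (Op H)})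
      (fun u => Ad μ u.1) (fun u => Ad_unitary μ u.2.2) ⟨⟨1, one_mem _, one_mem _⟩, Ad_one μ⟩
      (fun u v => ⟨⟨u.1 * v.1, mul_mem u.2.1 v.2.1, mul_mem u.2.2 v.2.2⟩, Ad_mul μ u.2.1 v.2.1⟩)
      (fun u => ⟨⟨star u.1, star_mem u.2.1, Unitary.star_mem u.2.2⟩, Ad_star μ u.2.1⟩)
      (x η) η (α := ε ^ 2) R0 K0 (by
        rintro ⟨u, hA, hu⟩
        simp only [norm_Ad_sub μ hA hu]
        by_cases hd : ‖ad μ u η‖ ≤ δ'
        · have e : ad μ u (x η) = (u * x - x * u) η + x (ad μ u η) := by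
            simp only [ad_apply, sub_apply, mul_apply_eq_comp, map_sub, rt_comm μ hx hA]
            abel
          have a1 := h u hu hA (hd.trans (min_le_left _ _))
          have a2 := x.le_opNorm (ad μ u η)
          have a3 : ‖x‖ * ‖ad μ u η‖ ≤ (‖x‖ + 1) * (ε / (2 * (‖x‖ + 1))) :=
            mul_le_mul (by linarith) (hd.trans (min_le_right _ _)) (norm_nonneg _) (by positivity)
          have a4 : (‖x‖ + 1) * (ε / (2 * (‖x‖ + 1))) = ε / 2 := by field_simp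
          have a5 : ‖ad μ u (x η)‖ ≤ ε := by
            rw [e]; linarith [norm_add_le ((u * x - x * u) η) (x (ad μ u η))]
          have a6 := pow_le_pow_left₀ (norm_nonneg _) a5 2
          have a7 : 0 ≤ K * ‖ad μ u η‖ ^ 2 := by positivity
          linarith
        · have a1 : ‖ad μ u (x η)‖ ≤ 2 * ‖x η‖ := by
            rw [← norm_Ad_sub μ hA hu]
            refine (norm_sub_le _ _).trans ?_
            rw [unitary_norm (Ad_unitary μ hu)]
            linarith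
          have a2 := pow_le_pow_left₀ (norm_nonneg _) a1 2
          have a3 := mul_le_mul_of_nonneg_left (pow_le_pow_left₀ d0.le (not_le.1 hd).le 2) K0
          have a4 : K * δ' ^ 2 = 4 * ‖x η‖ ^ 2 := by rw [hK]; field_simp
          nlinarith [sq_nonneg ε])
    obtain ⟨c, rfl⟩ := gap_scalar μ hL hη hF (by positivity)
      (gap_of_unitary μ R0.le (μ.J_fix μ.cp) fun u hA hu => by
        simpa only [norm_Ad_sub μ hA hu] using k2 ⟨u, hA, hu⟩)
    refine ⟨c, k1.trans ?_⟩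
    have a1 : 2 * K * ‖η‖ * (‖x η‖ / R) ≤ ε ^ 2 := by
      rw [hη, mul_one, ← mul_div_assoc, div_le_iff₀ R0, hR, mul_div_cancel₀ _ (by positivity)]
      linarith
    linarith
  have hc : x η ∈ closure (Submodule.span ℂ {η} : Set H) := by
    refine Metric.mem_closure_iff.2 fun ε hε => ?_
    obtain ⟨c, hc⟩ := key (ε / 2) (by positivity)
    refine ⟨c • η, Submodule.smul_mem _ _ (Submodule.mem_span_singleton_self η), ?_⟩
    rw [dist_comm, dist_eq_norm]
    refine lt_of_pow_lt_pow_left₀ 2 hε.le ?_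
    nlinarith
  rw [(Submodule.closed_of_finiteDimensional _).closure_eq] at hc
  obtain ⟨c, hc⟩ := Submodule.mem_span_singleton.1 hc
  exact ⟨c, μ.cycB.ext μ.cp hx (A.smul_mem (one_mem A) c) hc.symm⟩

theorem coreStmt : Vale.Agent.P132.CoreStmt.{u} := by
  intro H _ _ _ A B η μ hη hG hE a ha
  refine core μ (le_of_gam μ hG) hη (fam_of_erel μ hη hE) ha.1 fun ε hε => ?_
  obtain ⟨δ, hδ, h⟩ := ha.2 ε hε
  exact ⟨δ, hδ, fun u hu hA hd => h u hu hA (by rwa [ad_apply, rt_η] at hd)⟩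

end Vale.Agent.P132b
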