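import Vale.Agent.P096b.ModApi
import Vale.Agent.P096b.Mean
import Vale.Agent.P096b.Amen

/-! Internal definitions for the bicentralizer theorem. -/

set_option linter.unusedSectionVars false

namespace Vale.Agent.P132b

open Filter Topology Vale.Agent.P096 Vale.Agent.P096b MeasureTheory
open scoped InnerProductSpace ComplexConjugate

universe u

variable {H : Type u} [NormedAddCommGroup H] [InnerProductSpace ℂ H] [CompleteSpace H]

variable {A B : Alg H} {η : H} (μ : Mod A B η)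

/-- Right multiplication. -/
noncomputable def rt (a : Op H) : Op H := jc μ.J (star a)

/-- The commutator `ζ ↦ c ζ - ζ c`. -/
noncomputable def ad (c : Op H) : Op H := c - rt μ c

/-- The conjugation `ζ ↦ u ζ u*`. -/
noncomputable def Ad (u : Op H) : Op H := u * jc μ.J u

/-- The spectral gap inequality. -/
def Gap (R : ℝ) (ζ θ : H) : Prop := ∀ c ∈ A, ‖ad μ c ζ‖ ≤ R * ‖ad μ c θ‖

/-- The centralizer. -/
def Cen (x : Op H) : Prop := x ∈ A ∧ ∀ t, μ.U t * x = x * μ.U t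

/-- Local existence of almost eigenoperators. -/
def LE : Prop := ∀ e f, Cen μ e → Cen μ f → IsStarProjection e → IsStarProjection f → e ≠ 0 →
  f ≠ 0 → ∀ m ε : ℝ, 0 < m → 0 < ε → ∃ c ∈ A, c ≠ 0 ∧ e * c = c ∧ c * f = c ∧
    ‖(m : ℂ) • c η - rt μ c η‖ ≤ ε * ‖c η‖

/-- Families of almost eigenoperators of total mass one. -/
def Fam (m : ℝ) : Prop := ∀ ε : ℝ, 0 < ε → ∃ (ι : Type) (_ : Fintype ι) (v : ι → Op H),
  (∀ k, v k ∈ A) ∧ ∑ k, ‖(m : ℂ) • v k η - rt μ (v k) η‖ ^ 2 ≤ ε ∧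
    (∀ θ, ∑ k, ‖v k θ‖ ^ 2 ≤ ‖θ‖ ^ 2) ∧ (∀ θ, ∑ k, ‖star (v k) θ‖ ^ 2 ≤ ‖θ‖ ^ 2) ∧
      1 - ε ≤ ∑ k, ‖v k η‖ ^ 2

theorem rt_apply (a : Op H) (ζ : H) : rt μ a ζ = μ.J (star a (μ.J ζ)) := rfl

theorem rt_η (a : Op H) : rt μ a η = μ.J (star a η) := by rw [rt_apply, μ.J_fix μ.cp]

theorem rt_mem {a : Op H} (ha : a ∈ A) : rt μ a ∈ B := μ.jA _ (star_mem ha)

theorem rt_star (a : Op H) : rt μ (star a) = star (rt μ a) := jc_star μ.JJ _

theorem rt_star' (a : Op H) : rt μ (star a) = jc μ.J a := by rw [rt, star_star]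

theorem rt_mul (a b : Op H) : rt μ (a * b) = rt μ b * rt μ a := by
  rw [rt, star_mul, jc_mul μ.JJ]; rfl

theorem rt_one : rt μ 1 = 1 := by rw [rt, star_one, jc_one μ.JJ]

theorem rt_add (a b : Op H) : rt μ (a + b) = rt μ a + rt μ b := by
  rw [rt, star_add, jc_add]; rfl

theorem rt_sub (a b : Op H) : rt μ (a - b) = rt μ a - rt μ b := by
  rw [rt, star_sub, jc_sub]; rfl

theorem rt_smul (c : ℂ) (a : Op H) : rt μ (c • a) = c • rt μ a := by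
  rw [rt, star_smul, jc_smul]; simp [rt]

theorem rt_norm (a : Op H) : ‖rt μ a‖ = ‖a‖ := by rw [rt, jc_norm μ.JJ, norm_star]

theorem rt_comm {a b : Op H} (ha : a ∈ A) (hb : b ∈ A) (ζ : H) :
    a (rt μ b ζ) = rt μ b (a ζ) := μ.cp.app ha (rt_mem μ hb) ζ

theorem rt_σ (t : ℝ) (a : Op H) : rt μ (μ.σ t a) = μ.σ t (rt μ a) := by
  rw [rt, ← μ.σ_star, μ.jc_σ]; rfl

theorem ad_apply (c : Op H) (ζ : H) : ad μ c ζ = c ζ - rt μ c ζ := rfl

theorem J_ad (c : Op H) (ζ : H) : μ.J (ad μ c ζ) = -ad μ (star c) (μ.J ζ) := by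
  rw [ad_apply, ad_apply, map_sub, rt_apply, rt_apply, μ.JJ, μ.JJ, star_star, neg_sub]

theorem Ad_apply (u : Op H) (ζ : H) : Ad μ u ζ = u (μ.J (u (μ.J ζ))) := rfl

theorem Ad_eq (u : Op H) : Ad μ u = u * rt μ (star u) := by rw [rt_star', Ad]

theorem Ad_one : Ad μ 1 = 1 := by rw [Ad, jc_one μ.JJ, mul_one]

theorem Ad_mul {u v : Op H} (hu : u ∈ A) (hv : v ∈ A) : Ad μ (u * v) = Ad μ u * Ad μ v := by
  have := (μ.cp.left v).1 hv _ (μ.jA u hu)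
  rw [Ad, Ad, Ad, jc_mul μ.JJ, mul_assoc, mul_assoc, ← mul_assoc v, this, mul_assoc]

theorem Ad_star {u : Op H} (hu : u ∈ A) : Ad μ (star u) = star (Ad μ u) := by
  rw [Ad, Ad, star_mul, ← jc_star μ.JJ]
  exact (μ.cp.left _).1 (star_mem hu) _ (μ.jA _ (star_mem hu))

theorem Ad_unitary {u : Op H} (hu : u ∈ unitary (Op H)) : Ad μ u ∈ unitary (Op H) :=
  mul_mem hu (jc_unitary μ.JJ hu)

theorem J_Ad {u : Op H} (hu : u ∈ A) (ζ : H) : μ.J (Ad μ u ζ) = Ad μ u (μ.J ζ) := by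
  have := μ.cp.app hu (μ.jA u hu) (μ.J ζ)
  rw [Ad_apply, Ad_apply, μ.JJ]
  simpa only [jc_apply, μ.JJ] using this.symm

theorem U_σ (t : ℝ) (x : Op H) (ζ : H) : μ.U t (x ζ) = μ.σ t x (μ.U t ζ) := by
  have := congrArg (fun T : Op H => T ζ) (μ.U_neg_mul t)
  simp only [mul_apply_eq_comp, one_apply_eq_self] at this
  simp only [Calc.σ, mul_apply_eq_comp, this]

theorem U_Ad (t : ℝ) (u : Op H) (ζ : H) : μ.U t (Ad μ u ζ) = Ad μ (μ.σ t u) (μ.U t ζ) := by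
  rw [Ad, Ad, U_σ, μ.σ_mul, μ.jc_σ]

/-- `‖u ζ u* - ζ‖ = ‖u ζ - ζ u‖`. -/
theorem norm_Ad_sub {u : Op H} (hA : u ∈ A) (hu : u ∈ unitary (Op H)) (ζ : H) :
    ‖Ad μ u ζ - ζ‖ = ‖ad μ u ζ‖ := by
  have h1 : rt μ u ∈ unitary (Op H) := jc_unitary μ.JJ (Unitary.star_mem hu)
  have h2 : rt μ u (rt μ (star u) ζ) = ζ := by
    rw [← mul_apply_eq_comp, ← rt_mul, (Unitary.mem_iff.1 hu).1, rt_one, one_apply_eq_self]
  rw [← unitary_norm h1, map_sub, Ad_eq, mul_apply_eq_comp, ← rt_comm μ hA hA, h2, ad_apply]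

theorem zero_of_zero (Φ : Calc H) {f g : ℝ → ℂ} (hf : BC f) (hg : BC g)
    (h : ∀ κ, f κ = 0 → g κ = 0) {θ : H} (h0 : Φ.F f θ = 0) : Φ.F g θ = 0 := by
  obtain ⟨ν, hν, -, h2⟩ := Φ.meas' θ
  have i1 : Integrable (fun κ => ‖f κ‖ ^ 2) ν := by
    obtain ⟨hc, C, hC⟩ := hf
    exact Integrable.of_bound (hc.norm.pow 2).aestronglyMeasurable (C ^ 2)
      (ae_of_all _ fun κ => by
        rw [norm_pow, norm_norm]; exact pow_le_pow_left₀ (norm_nonneg _) (hC κ) 2)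
  have e1 := h2 f hf
  rw [h0, norm_zero, zero_pow two_ne_zero] at e1
  have e2 := (integral_eq_zero_iff_of_nonneg (fun κ => by positivity) i1).1 e1.symm
  have e3 : ∫ κ, ‖g κ‖ ^ 2 ∂ν = 0 := integral_eq_zero_of_ae (e2.mono fun κ hκ => by
    have : f κ = 0 := by simpa using hκ
    simp [h κ this])
  rw [← h2 g hg] at e3
  simpa using e3

/-- Vectors fixed by the unitary group. -/
theorem F_of_U (Φ : Calc H) {θ : H} (h : ∀ t, Φ.U t θ = θ) {f : ℝ → ℂ} (hf : BC f) :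
    Φ.F f θ = f 0 • θ := by
  have b := gs_bc one_pos 0 0
  refine Φ.at_zero ((BC.const 1).sub b) (fun κ hκ => ?_) ?_ hf
  · rw [sub_ne_zero, gs, ← Complex.ofReal_one, Ne, Complex.ofReal_inj, eq_comm,
      Real.exp_eq_one_iff]
    have := sq_pos_of_ne_zero hκ
    intro e
    nlinarith
  · rw [Φ.sub (BC.const 1) b, Φ.one, sub_apply, Φ.gs_apply one_pos, one_apply_eq_self]
    simp only [h]
    rw [gk_const one_pos, sub_self]

variable {μ}

theorem Cen.U {x : Op H} (h : Cen μ x) (t : ℝ) : μ.U t (x η) = x η := by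
  rw [← mul_apply_eq_comp, h.2, mul_apply_eq_comp, μ.U_fix μ.cp]

theorem Cen.rt {x : Op H} (h : Cen μ x) : rt μ x η = x η := by
  rw [rt_η]
  refine μ.cancel bc_cf cf_ne ?_
  rw [← μ.graph x h.1, F_of_U _ h.U bc_sf, F_of_U _ h.U bc_cf, sf, neg_zero]

theorem Cen.σ {x : Op H} (h : Cen μ x) (t : ℝ) : μ.σ t x = x := μ.σ_fix (h.2 t)

theorem Cen.star {x : Op H} (h : Cen μ x) : Cen μ (star x) := by
  refine ⟨star_mem h.1, fun t => ?_⟩
  have := congrArg Star.star (h.2 (-t))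
  simpa only [star_mul, μ.star_U, neg_neg] using this.symm

theorem Cen.one : Cen μ 1 := ⟨one_mem _, fun _ => by rw [mul_one, one_mul]⟩

theorem Cen.mul {x y : Op H} (h : Cen μ x) (h' : Cen μ y) : Cen μ (x * y) :=
  ⟨mul_mem h.1 h'.1, fun t => by rw [← mul_assoc, h.2, mul_assoc, h'.2, mul_assoc]⟩

theorem Cen.add {x y : Op H} (h : Cen μ x) (h' : Cen μ y) : Cen μ (x + y) :=
  ⟨add_mem h.1 h'.1, fun t => by rw [mul_add, add_mul, h.2, h'.2]⟩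

theorem Cen.sub {x y : Op H} (h : Cen μ x) (h' : Cen μ y) : Cen μ (x - y) :=
  ⟨sub_mem h.1 h'.1, fun t => by rw [mul_sub, sub_mul, h.2, h'.2]⟩

theorem Cen.smul {x : Op H} (c : ℂ) (h : Cen μ x) : Cen μ (c • x) :=
  ⟨A.smul_mem h.1 c, fun t => by rw [mul_smul_comm, smul_mul_assoc, h.2]⟩

end Vale.Agent.P132b
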