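import Vale.Agent.P132b.Defs

/-! Spectral measure lemmas. -/

set_option linter.unusedSectionVars false

namespace Vale.Agent.P132b

open Filter Topology Vale.Agent.P096 Vale.Agent.P096b MeasureTheory
open scoped InnerProductSpace ComplexConjugate

universe u

variable {H : Type u} [NormedAddCommGroup H] [InnerProductSpace ℂ H] [CompleteSpace H]

/-- If all small windows in the negative half line carry mass `O (δ ^ 2)`, there is no mass.
With the measure `ν` of `Calc.meas'`, `ν (Icc (-r - δ) (-r + δ)) ≤ (C δ) ^ 2`; cover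
`Icc (-b) (-a)` by `N` windows with `δ = (b - a) / N`, `r = a + j δ`; so `ν (Icc (-b) (-a)) = 0`
for all `0 < a < b`, so `ν (Iio 0) = 0`, and `‖F f θ‖ ^ 2 = ∫ ‖f‖ ^ 2 = 0`. -/
theorem no_mass (Φ : Calc H) {θ : H}
    (h : ∀ a : ℝ, 0 < a → ∃ C δ₀ : ℝ, 0 < δ₀ ∧ ∀ r δ : ℝ, a ≤ r → 0 < δ → δ ≤ δ₀ →
      ∃ g, BC g ∧ (∀ κ, |κ + r| ≤ δ → g κ = 1) ∧ ‖Φ.F g θ‖ ≤ C * δ)
    {f : ℝ → ℂ} (hf : BC f) (h0 : ∀ κ, 0 ≤ κ → f κ = 0) : Φ.F f θ = 0 := by
  obtain ⟨ν, hν, -, h2⟩ := Φ.meas' θ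
  have key : ∀ a L : ℝ, 0 < a → 0 < L → ν (Set.Icc (-(a + L)) (-a)) = 0 := fun a L ha hL => by
    obtain ⟨C, δ₀, d0, hC⟩ := h a ha
    have win : ∀ r δ : ℝ, a ≤ r → 0 < δ → δ ≤ δ₀ →
        ν.real (Set.Icc (-r - δ) (-r + δ)) ≤ (C * δ) ^ 2 := fun r δ h1 h3 h4 => by
      obtain ⟨g, g1, g2, g3⟩ := hC r δ h1 h3 h4
      refine le_trans ?_ (pow_le_pow_left₀ (norm_nonneg _) g3 2)
      rw [h2 g g1]
      refine le_trans (le_of_eq ?_) (setIntegral_le_integral (s := Set.Icc (-r - δ) (-r + δ))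
        (calc_integrable_sq ν g1) (Eventually.of_forall fun _ => by positivity))
      rw [setIntegral_congr_fun (g := fun _ => 1) measurableSet_Icc fun κ hκ => by
        simp [g2 κ (abs_le.2 ⟨by linarith [hκ.1], by linarith [hκ.2]⟩)]]
      simp
    have bd : ∀ N : ℕ, L / δ₀ ≤ (N + 1 : ℝ) →
        ν.real (Set.Icc (-(a + L)) (-a)) ≤ 2 * (C * L) ^ 2 * (1 / ((N : ℝ) + 1)) := fun N hN => by
      have N0 : (0 : ℝ) < N + 1 := by positivity
      set δ := L / (N + 1) with hδ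
      have e0 : 0 < δ := by positivity
      have e1 : δ ≤ δ₀ := by
        rw [hδ, div_le_iff₀ N0]; rw [div_le_iff₀ d0] at hN; linarith
      have eL : L = δ * (N + 1) := by rw [hδ]; field_simp
      have cov : Set.Icc (-(a + L)) (-a) ⊆ ⋃ j ∈ Finset.range (N + 2),
          Set.Icc (-(a + j * δ) - δ) (-(a + j * δ) + δ) := fun κ hκ => by
        have p0 : 0 ≤ (-κ - a) / δ := div_nonneg (by linarith [hκ.2]) e0.le
        have p1 := Nat.floor_le p0
        have p2 := Nat.lt_floor_add_one ((-κ - a) / δ)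
        have p3 : (-κ - a) / δ ≤ N + 1 := by rw [div_le_iff₀ e0]; linarith [hκ.1]
        rw [le_div_iff₀ e0] at p1
        rw [div_lt_iff₀ e0] at p2
        simp only [Set.mem_iUnion]
        refine ⟨⌊(-κ - a) / δ⌋₊, Finset.mem_range.2 (Nat.lt_succ_of_le (Nat.floor_le_of_le ?_)),
          by linarith, by linarith⟩
        exact_mod_cast p3
      refine (measureReal_mono cov (measure_ne_top _ _)).trans ((measureReal_biUnion_finset_le _ _).trans ?_)
      refine (Finset.sum_le_sum fun (j : ℕ) _ => win (a + j * δ) δ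
        (le_add_of_nonneg_right (mul_nonneg (Nat.cast_nonneg j) e0.le)) e0 e1).trans ?_
      rw [Finset.sum_const, Finset.card_range, nsmul_eq_mul]
      have e2 : 2 * (C * L) ^ 2 * (1 / ((N : ℝ) + 1)) = 2 * (N + 1) * (C * δ) ^ 2 := by
        rw [eL]; field_simp
      rw [e2]
      push_cast
      exact mul_le_mul_of_nonneg_right (by linarith [(Nat.cast_nonneg N : (0 : ℝ) ≤ N)])
        (sq_nonneg _)
    have lim := (tendsto_one_div_add_atTop_nhds_zero_nat (𝕜 := ℝ)).const_mul (2 * (C * L) ^ 2)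
    rw [mul_zero] at lim
    have := ge_of_tendsto lim (eventually_atTop.2 ⟨⌈L / δ₀⌉₊, fun N hN => bd N (by
      have := Nat.le_ceil (L / δ₀)
      have : (⌈L / δ₀⌉₊ : ℝ) ≤ N := by exact_mod_cast hN
      linarith)⟩)
    exact (measureReal_eq_zero_iff (measure_ne_top _ _)).1 (le_antisymm this measureReal_nonneg)
  have neg : ν (Set.Iio 0) = 0 := measure_null_of_locally_null _ fun κ hκ => by
    have hκ' : κ < 0 := hκ
    refine ⟨Set.Icc (-(-κ / 2 + -κ)) (-(-κ / 2)), mem_nhdsWithin_of_mem_nhds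
      (Icc_mem_nhds (by linarith) (by linarith)), key _ _ (by linarith) (by linarith)⟩
  have e3 : ∫ κ, ‖f κ‖ ^ 2 ∂ν = 0 := integral_eq_zero_of_ae (by
    filter_upwards [measure_eq_zero_iff_ae_notMem.1 neg] with κ hκ
    simp [h0 κ (not_lt.1 hκ)])
  rw [← h2 f hf] at e3
  simpa using e3

end Vale.Agent.P132b
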