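import Vale.Agent.P132b.WDefs
import Vale.Agent.P132.IMain

/-! Faithful normal states are weights. -/

set_option linter.unusedSectionVars false

namespace Vale.Agent.P132b

open Filter Topology Vale.Agent.P096 Vale.Agent.P096b Vale.Agent.P132
open scoped InnerProductSpace ComplexConjugate ENNReal NNReal

universe u

variable {H : Type u} [NormedAddCommGroup H] [InnerProductSpace ℂ H] [CompleteSpace H]

theorem wb_re {x y : Op H} (h : x ≤ y) (η : H) : (⟪η, x η⟫_ℂ).re ≤ (⟪η, y η⟫_ℂ).re := by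
  have := ContinuousLinearMap.IsPositive.re_inner_nonneg_right h η
  rw [sub_apply, inner_sub_right] at this
  simpa using this

/-- Least upper bounds of directed families are weak limits. -/
theorem wb_lub {S : Set (Op H)} {x : Op H} (hn : S.Nonempty) (h0 : ∀ y ∈ S, 0 ≤ y)
    (hd : DirectedOn (· ≤ ·) S) (hl : IsLUB S x) : ∃ l : Ultrafilter S,
      ∀ η, Tendsto (fun y : S => ⟪η, (y : Op H) η⟫_ℂ) l (𝓝 ⟪η, x η⟫_ℂ) := by
  have : Nonempty S := hn.to_subtype
  have : IsDirectedOrder S := hd.isDirectedOrder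
  obtain ⟨l, hl'⟩ := Ultrafilter.exists_le (atTop : Filter S)
  obtain ⟨z, hz⟩ := tl_ulim l (fun y : S => (y : Op H)) ‖x‖ fun y =>
    CStarAlgebra.norm_le_norm_of_nonneg_of_le (h0 _ y.2) (hl.1 y.2)
  have pos : ∀ (a : S → Op H) (b : Op H), (∀ᶠ y in l, 0 ≤ a y) →
      (∀ η, Tendsto (fun y => ⟪a y η, η⟫_ℂ) l (𝓝 ⟪b η, η⟫_ℂ)) → 0 ≤ b := fun a b ha hb => by
    refine (ContinuousLinearMap.nonneg_iff_isPositive b).2
      ((ContinuousLinearMap.isPositive_iff_complex b).2 fun η => ?_)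
    have hc : IsClosed {c : ℂ | ((c.re : ℝ) : ℂ) = c ∧ 0 ≤ c.re} :=
      (isClosed_eq (by fun_prop) continuous_id).inter 
        (isClosed_le continuous_const Complex.continuous_re)
    exact hc.mem_of_tendsto (hb η) (ha.mono fun y hy =>
      (ContinuousLinearMap.isPositive_iff_complex _).1
        ((ContinuousLinearMap.nonneg_iff_isPositive _).1 hy) η)
  have hz' : ∀ η, Tendsto (fun y : S => ⟪(y : Op H) η, η⟫_ℂ) l (𝓝 ⟪z η, η⟫_ℂ) := fun η => by
    have := (Complex.continuous_conj.tendsto _).comp (hz η η)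
    simpa only [Function.comp_def, inner_conj_symm] using this
  have h1 : z ≤ x := sub_nonneg.1 (pos (fun y => x - y) _
    (.of_forall fun y => sub_nonneg.2 (hl.1 y.2)) fun η => by
      simp only [sub_apply, inner_sub_left]
      exact tendsto_const_nhds.sub (hz' η))
  have h2 : x ≤ z := hl.2 fun w hw => sub_nonneg.1 (pos (fun y => y - w) _
    ((eventually_ge_atTop (⟨w, hw⟩ : S)).filter_mono hl' |>.mono fun y hy => sub_nonneg.2 hy)
      fun η => by
        simp only [sub_apply, inner_sub_left]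
        exact (hz' η).sub tendsto_const_nhds)
  obtain rfl := le_antisymm h1 h2
  exact ⟨l, fun η => hz η η⟩

variable {M : VonNeumannAlgebra H} {φ : Op H → ℂ}

theorem wb_ideal (x : Op H) :
    x ∈ leftIdeal M (fun x => ENNReal.ofReal (φ x).re) ↔ x ∈ M :=
  and_iff_left ENNReal.ofReal_lt_top

theorem wb_weight (h : IsFaithfulNormalState M φ) :
    IsWeight M fun x => ENNReal.ofReal (φ x).re := by
  obtain ⟨ζ, z1, z2⟩ := fns_vec h
  have z3 : ∀ x ∈ M, HasSum (fun n => (⟪ζ n, x (ζ n)⟫_ℂ).re) (φ x).re := fun x hx =>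
    Complex.hasSum_re (z2 x hx)
  have mono : ∀ x ∈ M, ∀ y ∈ M, x ≤ y → (φ x).re ≤ (φ y).re := fun x hx y hy hxy =>
    hasSum_le (fun n => wb_re hxy _) (z3 x hx) (z3 y hy)
  have nn : ∀ x ∈ M, 0 ≤ x → 0 ≤ (φ x).re := fun x hx h0 =>
    (z3 x hx).nonneg fun n => by simpa using wb_re h0 (ζ n)
  refine ⟨fun x hx y hy x0 y0 => ?_, fun c x hx x0 => ?_, fun x hx x0 e => ?_,
    fun S x hn hS hd hl => ?_, fun x hx s ε hε => ⟨x, (wb_ideal x).2 hx, fun p _ => by simpa⟩⟩
  · rw [← ENNReal.ofReal_add (nn x hx x0) (nn y hy y0)]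
    congr 1
    refine (z3 _ (add_mem hx hy)).unique ?_
    simpa only [add_apply, inner_add_right, Complex.add_re] using (z3 x hx).add (z3 y hy)
  · rw [← ENNReal.ofReal_coe_nnreal, ← ENNReal.ofReal_mul (NNReal.coe_nonneg c)]
    congr 1
    refine (z3 _ (M.toStarSubalgebra.smul_mem hx _)).unique ?_
    simpa only [smul_apply, inner_smul_right, Complex.re_ofReal_mul] using
      (z3 x hx).mul_left (c : ℝ)
  · obtain ⟨l, l1, l2, l3⟩ := exists_sqrt' x (IsSelfAdjoint.of_nonneg x0).star_eq fun η => by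
      simpa using wb_re x0 η
    have lm : l ∈ M := ((cp_vn M).left l).2 fun y hy =>
      (l3 y (((cp_vn M).left x).1 hx y hy).symm).symm
    have e1 : (φ x).re = 0 := le_antisymm (ENNReal.ofReal_eq_zero.1 e) (nn x hx x0)
    have e2 := h.pos l lm
    have e3 := h.faithful l lm
    rw [l1, l2] at e2 e3
    rw [← l2, e3 (Complex.ext e1 e2.2), mul_zero]
  · obtain ⟨l, hl'⟩ := wb_lub hn (fun y hy => (hS y hy).2) hd hl
    have xm : x ∈ M := ((cp_vn M).left x).2 fun b hb => by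
      have key : ∀ u : Op H, u ∈ M.commutant.toStarSubalgebra → ∀ η θ : H,
          ⟪θ, x (u η)⟫_ℂ = ⟪star u θ, x η⟫_ℂ := fun u hu η θ => by
        have pol : ∀ (T : Op H) (a b : H), ⟪a, T b⟫_ℂ = (⟪a + b, T (a + b)⟫_ℂ -
            ⟪a - b, T (a - b)⟫_ℂ - Complex.I * ⟪a + Complex.I • b, T (a + Complex.I • b)⟫_ℂ +
            Complex.I * ⟪a - Complex.I • b, T (a - Complex.I • b)⟫_ℂ) / 4 := fun T a b => by
          simp only [map_add, map_sub, map_smul, inner_add_left, inner_add_right, inner_sub_left,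
            inner_sub_right, inner_smul_left, inner_smul_right, Complex.conj_I]
          linear_combination (⟪a, T b⟫_ℂ - ⟪b, T a⟫_ℂ) / 2 * Complex.I_mul_I
        have lim : ∀ a b : H, Tendsto (fun y : S => ⟪a, (y : Op H) b⟫_ℂ) l (𝓝 ⟪a, x b⟫_ℂ) :=
          fun a b => by
            simp only [pol _ a b]
            exact (((((hl' _).sub (hl' _)).sub ((hl' _).const_mul _)).add
              ((hl' _).const_mul _))).div_const 4
        refine tendsto_nhds_unique (lim θ (u η)) ((lim (star u θ) η).congr fun y => ?_)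
        rw [tl_inner', (cp_vn M).app (hS _ y.2).1 hu]
      ext η
      refine ext_inner_left ℂ fun θ => ?_
      rw [mul_apply_eq_comp, mul_apply_eq_comp, key b hb, tl_inner']
    refine le_antisymm ?_ (iSup₂_le fun y hy =>
      ENNReal.ofReal_le_ofReal (mono y (hS y hy).1 x xm (hl.1 hy)))
    have lim := tendsto_tsum_of_dominated_convergence (𝓕 := (l : Filter S))
      (f := fun y n => (⟪ζ n, (y : Op H) (ζ n)⟫_ℂ).re) (g := fun n => (⟪ζ n, x (ζ n)⟫_ℂ).re)
      (z3 x xm).summable (fun n => (Complex.continuous_re.tendsto _).comp (hl' (ζ n)))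
      (.of_forall fun y n => by
        rw [Real.norm_of_nonneg (by simpa using wb_re (hS _ y.2).2 (ζ n))]
        exact wb_re (hl.1 y.2) _)
    rw [(z3 x xm).tsum_eq] at lim
    refine le_of_tendsto' ((ENNReal.continuous_ofReal.tendsto _).comp lim) fun y => ?_
    rw [Function.comp_apply, (z3 _ (hS _ y.2).1).tsum_eq]
    exact le_iSup₂_of_le (f := fun y (_ : y ∈ S) => ENNReal.ofReal (φ y).re) y.1 y.2 le_rfl

variable {K : Type u} [NormedAddCommGroup K] [InnerProductSpace ℂ K] [CompleteSpace K]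
  {Λ : Op H → K}

theorem wb_gns (h : IsFaithfulNormalState M φ) (g : IsGNS M φ Λ) :
    IsWeightGNS M (fun x => ENNReal.ofReal (φ x).re) Λ := by
  obtain ⟨ζ, z1, z2⟩ := fns_vec h
  have ext : ∀ a b : K, (∀ z ∈ M, ⟪Λ z, a⟫_ℂ = ⟪Λ z, b⟫_ℂ) → a = b := fun a b hab =>
    g.dense.eq_of_inner_right (𝕜 := ℂ) (by rintro _ ⟨z, hz, rfl⟩; exact hab z hz)
  have mm : ∀ z ∈ M, ∀ x ∈ M, star z * x ∈ M := fun z hz x hx => mul_mem (star_mem hz) hx
  refine ⟨fun x hx y hy => ext _ _ fun z hz => ?_, fun c x hx => ext _ _ fun z hz => ?_,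
    fun x hx => ?_, ?_⟩
  · rw [inner_add_right, g.inner z hz _ (add_mem hx.1 hy.1), g.inner z hz _ hx.1,
      g.inner z hz _ hy.1]
    refine (z2 _ (mm z hz _ (add_mem hx.1 hy.1))).unique ?_
    simpa only [mul_add, add_apply, inner_add_right] using
      (z2 _ (mm z hz _ hx.1)).add (z2 _ (mm z hz _ hy.1))
  · have hc : c • x ∈ M := M.toStarSubalgebra.smul_mem hx.1 c
    rw [inner_smul_right, g.inner z hz _ hc, g.inner z hz _ hx.1]
    refine (z2 _ (mm z hz _ hc)).unique ?_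
    simpa only [mul_smul_comm, smul_apply, inner_smul_right] using
      (z2 _ (mm z hz _ hx.1)).mul_left c
  · rw [ENNReal.toReal_ofReal (h.pos x hx.1).1, ← g.inner x hx.1 x hx.1]
    exact (inner_self_eq_norm_sq (𝕜 := ℂ) _).symm
  · exact g.dense.mono (Set.image_mono fun x hx => (wb_ideal x).2 hx)

theorem wb_graph : weightDelta M (fun x => ENNReal.ofReal (φ x).re) Λ = graphDelta M Λ := by
  have : weightS M (fun x => ENNReal.ofReal (φ x).re) Λ = graphS M Λ := by
    unfold weightS graphS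
    congr 1
    ext p
    exact ⟨fun ⟨x, h1, _, h3⟩ => ⟨x, h1.1, h3⟩,
      fun ⟨x, h1, h3⟩ => ⟨x, (wb_ideal x).2 h1, (wb_ideal _).2 (star_mem h1), h3⟩⟩
  unfold weightDelta graphDelta
  rw [this]

theorem wb_type (h : TypeIIIOne M) : IsTypeIII1 M := by
  refine ⟨h.1, fun ψ hψ K _ _ _ Λ g r hr => ?_⟩
  have : (r : ℂ) ∈ connesS M := by rw [h.2]; exact ⟨r, hr, rfl⟩
  rw [← wb_graph (φ := ψ)]
  exact this _ (wb_weight hψ) K Λ (wb_gns hψ g)

end Vale.Agent.P132b
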