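import Vale.Agent.P132.Defs

/-! The invariant `S(M)` defined by weights. -/

namespace Vale.Agent.P132b

open Vale.Agent.P132
open scoped InnerProductSpace ENNReal NNReal

universe u

variable {H : Type u} [NormedAddCommGroup H] [InnerProductSpace ℂ H] [CompleteSpace H]

/-- The left ideal of the elements `x` of `M` with `ψ (x* x) < ∞`. -/
def leftIdeal (M : VonNeumannAlgebra H) (ψ : (H →L[ℂ] H) → ℝ≥0∞) : Set (H →L[ℂ] H) :=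
  {x | x ∈ M ∧ ψ (star x * x) < ∞}

/-- `ψ` restricts to a faithful normal semifinite weight on the positive cone of `M`. -/
structure IsWeight (M : VonNeumannAlgebra H) (ψ : (H →L[ℂ] H) → ℝ≥0∞) : Prop where
  add : ∀ x ∈ M, ∀ y ∈ M, 0 ≤ x → 0 ≤ y → ψ (x + y) = ψ x + ψ y
  smul : ∀ c : ℝ≥0, ∀ x ∈ M, 0 ≤ x → ψ (((c : ℝ) : ℂ) • x) = c * ψ x
  faithful : ∀ x ∈ M, 0 ≤ x → ψ x = 0 → x = 0
  normal : ∀ (S : Set (H →L[ℂ] H)) (x : H →L[ℂ] H), S.Nonempty → (∀ y ∈ S, y ∈ M ∧ 0 ≤ y) →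
    DirectedOn (· ≤ ·) S → IsLUB S x → ψ x = ⨆ y ∈ S, ψ y
  semifinite : ∀ x ∈ M, ∀ (s : Finset (H × H)) (ε : ℝ), 0 < ε →
    ∃ y ∈ leftIdeal M ψ, ∀ p ∈ s, ‖⟪p.1, (x - y) p.2⟫_ℂ‖ < ε

section Modular

variable {K : Type u} [NormedAddCommGroup K] [InnerProductSpace ℂ K] [CompleteSpace K]

/-- `Λ` is the GNS map of the weight `ψ`. -/
structure IsWeightGNS (M : VonNeumannAlgebra H) (ψ : (H →L[ℂ] H) → ℝ≥0∞)
    (Λ : (H →L[ℂ] H) → K) : Prop where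
  add : ∀ x ∈ leftIdeal M ψ, ∀ y ∈ leftIdeal M ψ, Λ (x + y) = Λ x + Λ y
  smul : ∀ c : ℂ, ∀ x ∈ leftIdeal M ψ, Λ (c • x) = c • Λ x
  norm : ∀ x ∈ leftIdeal M ψ, ‖Λ x‖ ^ 2 = (ψ (star x * x)).toReal
  dense : Dense (Λ '' leftIdeal M ψ)

/-- The graph of the Tomita operator `S`, the closure of `Λ x ↦ Λ x*`. -/
def weightS (M : VonNeumannAlgebra H) (ψ : (H →L[ℂ] H) → ℝ≥0∞) (Λ : (H →L[ℂ] H) → K) :
    Set (K × K) :=
  closure {p | ∃ x ∈ leftIdeal M ψ, star x ∈ leftIdeal M ψ ∧ p = (Λ x, Λ (star x))}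

/-- The graph of the modular operator `Δ = S* S`. -/
def weightDelta (M : VonNeumannAlgebra H) (ψ : (H →L[ℂ] H) → ℝ≥0∞) (Λ : (H →L[ℂ] H) → K) :
    Set (K × K) :=
  {p | ∃ η' : K, (p.1, η') ∈ weightS M ψ Λ ∧
    ∀ q ∈ weightS M ψ Λ, ⟪q.1, p.2⟫_ℂ = ⟪η', q.2⟫_ℂ}

end Modular

/-- The invariant `S(M)`: the intersection of the spectra of all modular operators. -/
def connesS (M : VonNeumannAlgebra H) : Set ℂ :=
  {r | ∀ ψ, IsWeight M ψ → ∀ (K : Type u) [NormedAddCommGroup K] [InnerProductSpace ℂ K]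
    [CompleteSpace K] (Λ : (H →L[ℂ] H) → K), IsWeightGNS M ψ Λ →
      r ∈ graphSpectrum (weightDelta M ψ Λ)}

/-- Factors of type III one. -/
def TypeIIIOne (M : VonNeumannAlgebra H) : Prop :=
  IsFactor M ∧ connesS M = {r : ℂ | ∃ t : ℝ, 0 ≤ t ∧ r = t}

end Vale.Agent.P132b
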