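import Vale.Agent.P132b.Defs

/-! The resolvent of a vector. -/

set_option linter.unusedSectionVars false

namespace Vale.Agent.P132b

open Filter Topology Vale.Agent.P096 Vale.Agent.P096b MeasureTheory
open scoped InnerProductSpace ComplexConjugate

universe u

variable {H : Type u} [NormedAddCommGroup H] [InnerProductSpace ℂ H] [CompleteSpace H]

variable {A B : Alg H} {η : H} (μ : Mod A B η)

/-- Take `b ∈ A` with `b η` near `ζ`, average it over the flow (`mean_comm`, `Mean.av` for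
`Calc.rep`, `Mean.av_inner`, `Mean.le`) and take the real part: for `a` in the centralizer
`star a η = J (a η)` by `Cen.rt`. -/
theorem cen_approx {ζ : H} (hU : ∀ t, μ.U t ζ = ζ) (hJ : μ.J ζ = ζ) (ε : ℝ) (hε : 0 < ε) :
    ∃ a, Cen μ a ∧ star a = a ∧ ‖a η - ζ‖ ≤ ε := by
  obtain ⟨b, hb, h1⟩ := μ.cycA ζ ε hε
  obtain ⟨m⟩ := mean_comm (Multiplicative ℝ)
  have hc : Cen μ (m.av μ.rep b) :=
    ⟨m.av_mem _ μ.cp fun g => by
      have := μ.uA g.toAdd b hb
      rwa [Calc.σ, ← μ.star_U] at this, fun t => m.av_comm μ.rep b (Multiplicative.ofAdd t)⟩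
  have h2 : ‖m.av μ.rep b η - ζ‖ ≤ ε := by
    have h3 := m.op_inner_near (mean_av_bd μ.rep b) (ζ := η) (η := m.av μ.rep b η - ζ)
      (c := ⟪m.av μ.rep b η - ζ, ζ⟫_ℂ) (t := ‖m.av μ.rep b η - ζ‖ * ε) fun g => by
        have e : ((μ.rep g : Op H) * b * star (μ.rep g : Op H)) η - ζ =
            μ.U g.toAdd (b η - ζ) := by
          change μ.U g.toAdd (b (star (μ.U g.toAdd) η)) - ζ = _
          rw [μ.star_U, μ.U_fix μ.cp, map_sub, hU]
        rw [← inner_sub_right, e]
        refine (norm_inner_le_norm _ _).trans (mul_le_mul_of_nonneg_left ?_ (norm_nonneg _))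
        rw [μ.norm_U]
        exact h1.le
    change ‖⟪_, m.av μ.rep b η⟫_ℂ - _‖ ≤ _ at h3
    rw [← inner_sub_right, inner_self_eq_norm_sq_to_K, norm_pow, RCLike.norm_ofReal, abs_norm,
      sq] at h3
    rcases (norm_nonneg (m.av μ.rep b η - ζ)).eq_or_lt with h0 | h0
    · rw [← h0]; exact hε.le
    · exact le_of_mul_le_mul_left h3 h0
  generalize m.av μ.rep b = a at hc h2
  refine ⟨(1 / 2 : ℂ) • (a + star a), (hc.add hc.star).smul _, ?_, ?_⟩
  · rw [star_smul, star_add, star_star, add_comm]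
    simp
  · have e1 : star a η - ζ = μ.J (a η - ζ) := by
      rw [map_sub, hJ, ← hc.star.rt, rt_η, star_star]
    have e2 : ((1 / 2 : ℂ) • (a + star a)) η - ζ = (1 / 2 : ℂ) • ((a η - ζ) + (star a η - ζ)) := by
      rw [smul_apply, add_apply]
      module
    have n2 : ‖(1 / 2 : ℂ)‖ = 1 / 2 := by simp
    have := norm_add_le (a η - ζ) (μ.J (a η - ζ))
    rw [μ.J.norm_map] at this
    rw [e2, e1, norm_smul, n2]
    linarith

/-- For self-adjoint `a` the operator `a + i` is invertible with a contractive inverse which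
commutes with everything that commutes with `a`. -/
theorem resolv (a : Op H) (ha : star a = a) : ∃ r : Op H, ‖r‖ ≤ 1 ∧
    r * a = 1 - Complex.I • r ∧ a * r = 1 - Complex.I • r ∧ ∀ y, y * a = a * y → y * r = r * y := by
  have hu : IsUnit (a + Complex.I • (1 : Op H)) := by
    have h1 : -Complex.I ∉ spectrum ℂ a := fun h => by
      have := congrArg Complex.im ((show IsSelfAdjoint a from ha).mem_spectrum_eq_re h)
      simp at this
    rw [spectrum.notMem_iff, Algebra.algebraMap_eq_smul_one, neg_smul, ← neg_add', add_comm] at h1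
    exact (IsUnit.neg_iff _).1 h1
  obtain ⟨u, hu⟩ := hu
  have h1 : (↑u⁻¹ : Op H) * (a + Complex.I • (1 : Op H)) = 1 := hu ▸ u.inv_mul
  have h2 : (a + Complex.I • (1 : Op H)) * (↑u⁻¹ : Op H) = 1 := hu ▸ u.mul_inv
  generalize (↑u⁻¹ : Op H) = r at h1 h2
  refine ⟨r, ContinuousLinearMap.opNorm_le_bound _ zero_le_one fun ζ => ?_, ?_, ?_, fun y hy => ?_⟩
  · have e1 : a (r ζ) + Complex.I • r ζ = ζ := congrArg (fun T : Op H => T ζ) h2
    have e2 : (⟪r ζ, a (r ζ)⟫_ℂ).im = 0 := by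
      rw [← Complex.conj_eq_iff_im, inner_conj_symm, tl_inner, ha]
    have e3 : (⟪r ζ, ζ⟫_ℂ).im = ‖r ζ‖ * ‖r ζ‖ := by
      conv_lhs => enter [1, 3]; rw [← e1]
      rw [inner_add_right, inner_smul_right, Complex.add_im, e2, Complex.I_mul_im, zero_add, ← sq]
      exact inner_self_eq_norm_sq (𝕜 := ℂ) _
    have e4 := (Complex.im_le_norm _).trans (norm_inner_le_norm (𝕜 := ℂ) (r ζ) ζ)
    rw [e3] at e4
    rw [one_mul]
    rcases (norm_nonneg (r ζ)).eq_or_lt with h0 | h0
    · rw [← h0]; exact norm_nonneg _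
    · exact le_of_mul_le_mul_left e4 h0
  · rw [← h1, mul_add, mul_smul_comm, mul_one, add_sub_cancel_right]
  · rw [← h2, add_mul, smul_mul_assoc, one_mul, add_sub_cancel_right]
  · have : y * (a + Complex.I • (1 : Op H)) = (a + Complex.I • (1 : Op H)) * y := by
      rw [mul_add, add_mul, hy, mul_smul_comm, smul_mul_assoc, mul_one, one_mul]
    calc y * r = r * ((a + Complex.I • (1 : Op H)) * y) * r := by rw [← mul_assoc, h1, one_mul]
      _ = r * y := by rw [← this, mul_assoc, mul_assoc, h2, mul_one]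

/-- The resolvent of the vector: a weak ultralimit (`tl_ulim`) of the resolvents of the
approximants; `rt (r n) (a n η) = rt (r n) (rt (a n) η) = rt (a n * r n) η`. -/
theorem vec_resolv {ζ : H} (hU : ∀ t, μ.U t ζ = ζ) (hJ : μ.J ζ = ζ) : ∃ r, Cen μ r ∧ ‖r‖ ≤ 1 ∧
    r ζ = η - Complex.I • r η ∧ rt μ r ζ = η - Complex.I • r η := by
  choose a ha sa na using fun n : ℕ => cen_approx μ hU hJ (1 / ((n : ℝ) + 1)) (by positivity)
  choose r nr ra ar cr using fun n => resolv (a n) (sa n)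
  have hr : ∀ n, Cen μ (r n) := fun n =>
    ⟨(μ.cp.left _).2 fun y hy => (cr n y ((μ.cp.left _).1 (ha n).1 y hy).symm).symm,
      fun t => cr n _ ((ha n).2 t)⟩
  obtain ⟨S, hS⟩ := tl_ulim (Filter.hyperfilter ℕ) r 1 nr
  have lim : Tendsto (fun n : ℕ => 1 / ((n : ℝ) + 1)) (Filter.hyperfilter ℕ) (𝓝 0) :=
    tendsto_one_div_add_atTop_nhds_zero_nat.mono_left
      (Nat.cofinite_eq_atTop ▸ Filter.hyperfilter_le_cofinite)
  have key : ∀ (x : ℕ → Op H) (X : Op H), (∀ n, ‖x n‖ ≤ 1) →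
      (∀ θ, Tendsto (fun n => ⟪θ, x n ζ⟫_ℂ) (Filter.hyperfilter ℕ) (𝓝 ⟪θ, X ζ⟫_ℂ)) →
      (∀ n, x n (a n η) = η - Complex.I • r n η) → X ζ = η - Complex.I • S η :=
    fun x X h1 h2 h3 => ext_inner_left ℂ fun θ => by
      have t1 : Tendsto (fun n => ⟪θ, x n (ζ - a n η)⟫_ℂ) (Filter.hyperfilter ℕ) (𝓝 0) := by
        refine squeeze_zero_norm (fun n => ?_) (by simpa using lim.const_mul ‖θ‖)
        refine (norm_inner_le_norm _ _).trans (mul_le_mul_of_nonneg_left
          (((x n).le_of_opNorm_le (h1 n) _).trans ?_) (norm_nonneg _))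
        rw [one_mul, norm_sub_rev, ← one_div]
        exact na n
      have t2 := (((hS η θ).const_mul Complex.I).const_sub ⟪θ, η⟫_ℂ).add t1
      rw [add_zero] at t2
      rw [inner_sub_right, inner_smul_right]
      refine tendsto_nhds_unique (h2 θ) (t2.congr fun n => ?_)
      rw [map_sub, h3, inner_sub_right, inner_sub_right, inner_smul_right]
      ring
  have ri : ∀ (x : Op H) θ, ⟪θ, rt μ x ζ⟫_ℂ = ⟪μ.J ζ, x (μ.J θ)⟫_ℂ := fun x θ => by
    rw [rt_apply, ← tl_inner', ← J_inner μ.J, μ.JJ]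
  refine ⟨S, ⟨CP.weak μ.cp (Eventually.of_forall fun n => (hr n).1) hS, fun t => ?_⟩,
    norm_le_of_inner zero_le_one fun ζ' θ => le_of_tendsto' (hS ζ' θ).norm fun n =>
      (norm_inner_le_norm _ _).trans (by
        rw [one_mul]
        exact mul_le_mul_of_nonneg_left
          (((r n).le_of_opNorm_le (nr n) _).trans_eq (one_mul _)) (norm_nonneg _)),
    key r S nr (hS ζ) fun n => ?_,
    key (fun n => rt μ (r n)) _ (fun n => (rt_norm μ _).trans_le (nr n))
      (fun θ => by simpa only [ri] using hS _ _) fun n => ?_⟩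
  · refine ContinuousLinearMap.ext fun ζ' => ext_inner_left ℂ fun θ => ?_
    rw [mul_apply_eq_comp, mul_apply_eq_comp, ← tl_inner']
    refine tendsto_nhds_unique (hS _ _) ((hS _ _).congr fun n => ?_)
    rw [tl_inner', ← mul_apply_eq_comp, ← (hr n).2, mul_apply_eq_comp]
  · rw [← mul_apply_eq_comp, ra]
    rfl
  · rw [← (ha n).rt, ← mul_apply_eq_comp, ← rt_mul, ar, rt_sub, rt_smul, rt_one, ← (hr n).rt]
    rfl

end Vale.Agent.P132b
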